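import Vale.Agent.P371.Mat
import Vale.Agent.P075.Mat

namespace Vale.Agent.P371

open Matrix Finset
open scoped ComplexOrder

variable {n : Type*} [Fintype n] [DecidableEq n]

lemma cauchy_factor (l : n → ℝ) (hl : ∀ i, 0 < l i) :
    ∃ G : Matrix n n ℝ, ∀ i j, ∑ a, G i a * G j a = 1 / (l i + l j) := by
  let C : Matrix n n ℝ := of fun i j => 1 / (l i + l j)
  have hQ : (diagonal l).PosDef := posDef_diagonal_iff.2 hl
  have hC : Cᵀ = C := by ext i j; simp [C, add_comm]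
  have h1 : diagonal l * C + C * diagonal l = vecMulVec (fun _ => (1 : ℝ)) fun _ => 1 := by
    ext i j
    have := hl i; have := hl j
    simp [C, vecMulVec]; field_simp
  have h2 : (diagonal l * C + C * diagonal l).PosSemidef := by
    rw [h1]
    simpa using posSemidef_vecMulVec_self_star (fun _ : n => (1 : ℝ))
  obtain ⟨G, hG, h3⟩ := P075.exists_sqrt (P075.lyap_pos hQ hC h2)
  refine ⟨G, fun i j => ?_⟩
  have := congrFun (congrFun h3 i) j
  rw [Matrix.mul_apply] at this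
  simp only [C, of_apply] at this
  rw [← this]
  refine sum_congr rfl fun a _ => ?_
  congr 1
  exact congrFun (congrFun (P075.psd_symm hG) a) j

lemma cj_sandwich {V : Matrix n n ℂ} (hV : Un V) (a b : n → ℝ) (M : Matrix n n ℂ) :
    cj V a * (V * M * Vᴴ) * cj V b = V * (of fun i j => (a i : ℂ) * M i j * b j) * Vᴴ := by
  have : (of fun i j => (a i : ℂ) * M i j * b j) =
      diagonal (fun i => (a i : ℂ)) * M * diagonal fun i => (b i : ℂ) := by
    ext i j; simp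
  rw [this]
  unfold cj
  calc _ = V * (diagonal (fun i => (a i : ℂ)) * (Vᴴ * V) * M * (Vᴴ * V) *
        diagonal fun i => (b i : ℂ)) * Vᴴ := by simp only [Matrix.mul_assoc]
    _ = _ := by rw [hV.2]; simp

omit [DecidableEq n] in
lemma rt_ctm_nonneg {m : Type*} [Fintype m] (F : Matrix m n ℂ) : 0 ≤ rt (Fᴴ * F) := by
  rw [rt_ctm]; positivity

lemma sos1 {N Ni W : Matrix n n ℂ} (hN : N.PosSemidef) (h1 : N * Ni = 1) (h2 : Ni * N = 1)
    (hNi : Niᴴ = Ni) (hW : Wᴴ = W) : rt (W * W * Ni) ≤ rt (W * N * W * (Ni * Ni)) := by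
  have h := rt_mul_nonneg hN (posSemidef_self_mul_conjTranspose (W * Ni - Ni * W))
  simp only [conjTranspose_sub, conjTranspose_mul, hNi, hW, Matrix.mul_sub, Matrix.sub_mul,
    rt_sub] at h
  have e1 : rt (N * (W * Ni * (Ni * W))) = rt (W * N * W * (Ni * Ni)) := by
    rw [show N * (W * Ni * (Ni * W)) = (N * W * (Ni * Ni)) * W by simp only [Matrix.mul_assoc],
      rt_comm]; simp only [Matrix.mul_assoc]
  have e2 : rt (N * (Ni * W * (Ni * W))) = rt (W * W * Ni) := by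
    rw [show N * (Ni * W * (Ni * W)) = (N * Ni) * (W * Ni) * W by simp only [Matrix.mul_assoc],
      h1, rt_comm]; simp only [Matrix.mul_assoc, Matrix.one_mul]
  have e3 : rt (N * (W * Ni * (W * Ni))) = rt (W * W * Ni) := by
    rw [show N * (W * Ni * (W * Ni)) = (N * W * Ni * W) * Ni by simp only [Matrix.mul_assoc],
      rt_comm, show Ni * (N * W * Ni * W) = (Ni * N) * (W * Ni) * W by simp only [Matrix.mul_assoc],
      h2, rt_comm]; simp only [Matrix.mul_assoc, Matrix.one_mul]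
  have e4 : rt (N * (Ni * W * (W * Ni))) = rt (W * W * Ni) := by
    rw [show N * (Ni * W * (W * Ni)) = (N * Ni) * (W * W * Ni) by simp only [Matrix.mul_assoc],
      h1, Matrix.one_mul]
  linarith

lemma core {V N Ni X Y Γ E : Matrix n n ℂ} (hV : Un V) {b : n → ℝ} (hb : ∀ i, |b i| < 1)
    (hN : N.PosSemidef) (h1 : N * Ni = 1) (h2 : Ni * N = 1) (hNi : Niᴴ = Ni)
    (hX : X * Xᴴ = cj V (fun i => 1 + b i) - E) (hY : Y * Yᴴ = cj V (fun i => 1 - b i) - E)
    (hXY : X * Yᴴ = Γ) (hYX : Y * Xᴴ = Γ) {δ : ℝ} (hδ : 0 ≤ δ)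
    (hE : (E - δ • (Ni * Ni)).PosSemidef) :
    rt (N * Γ) ≤ rt (N * cj V fun i => √(1 - b i ^ 2)) -
      δ * rt (Ni * cj V fun i => (√(1 - b i ^ 2))⁻¹) := by
  obtain ⟨c, hc⟩ : ∃ c : n → ℝ, ∀ i, c i = √(1 - b i ^ 2) := ⟨_, fun _ => rfl⟩
  simp only [← hc]
  have b1 : ∀ i, 0 < 1 + b i := fun i => by have := (abs_lt.1 (hb i)).1; linarith
  have b2 : ∀ i, 0 < 1 - b i := fun i => by have := (abs_lt.1 (hb i)).2; linarith
  have c2 : ∀ i, c i ^ 2 = (1 + b i) * (1 - b i) := fun i => by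
    rw [hc, Real.sq_sqrt (by nlinarith [b1 i, b2 i])]; ring
  have c0 : ∀ i, 0 < c i := fun i => by
    rw [hc]; exact Real.sqrt_pos.2 (by nlinarith [b1 i, b2 i])
  obtain ⟨l, hl⟩ : ∃ l : n → ℝ, ∀ i, l i = c i / (1 + b i) := ⟨_, fun _ => rfl⟩
  have l0 : ∀ i, 0 < l i := fun i => by rw [hl]; exact div_pos (c0 i) (b1 i)
  obtain ⟨G, hG⟩ := cauchy_factor l l0
  set L := cj V l with hL
  set Ξ : Matrix n n ℂ := ∑ a, cj V (fun i => G i a) * N * cj V (fun i => G i a) with hΞ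
  have hΞp : Ξ.PosSemidef := by
    refine posSemidef_sum _ fun a _ => ?_
    have := hN.conjTranspose_mul_mul_same (cj V fun i => G i a)
    rwa [cj_herm] at this
  have hLh : Lᴴ = L := cj_herm _ _
  have ly : L * Ξ + Ξ * L = N := by
    have e0 : N = V * (Vᴴ * N * V) * Vᴴ := by
      calc N = (V * Vᴴ) * N * (V * Vᴴ) := by rw [hV.1]; simp
        _ = _ := by simp only [Matrix.mul_assoc]
    generalize Vᴴ * N * V = M at e0
    rw [hΞ, Matrix.mul_sum, Matrix.sum_mul, ← sum_add_distrib]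
    have : ∀ a, L * (cj V (fun i => G i a) * N * cj V (fun i => G i a)) +
        cj V (fun i => G i a) * N * cj V (fun i => G i a) * L =
        V * (of fun i j => ((G i a * G j a * (l i + l j) : ℝ) : ℂ) * M i j) * Vᴴ := by
      intro a
      rw [← Matrix.mul_assoc, ← Matrix.mul_assoc, Matrix.mul_assoc _ _ L, hL, cj_mul hV, cj_mul hV,
        e0, cj_sandwich hV, cj_sandwich hV, ← Matrix.add_mul, ← Matrix.mul_add]
      congr 2; ext i j; simp; ring
    simp only [this]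
    rw [← Matrix.sum_mul, ← Matrix.mul_sum]
    conv_rhs => rw [e0]
    congr 2; ext i j
    rw [Matrix.sum_apply]
    simp only [of_apply]
    rw [← sum_mul, ← Complex.ofReal_sum, ← sum_mul, hG]
    have := l0 i; have := l0 j
    rw [one_div_mul_cancel (by positivity)]; simp
  have p0 := rt_mul_nonneg hΞp (posSemidef_self_mul_conjTranspose (L * X - Y))
  have e1 : (L * X - Y) * (L * X - Y)ᴴ = L * (X * Xᴴ) * L - L * (X * Yᴴ) - (Y * Xᴴ) * L + Y * Yᴴ := by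
    simp only [conjTranspose_sub, conjTranspose_mul, hLh, Matrix.mul_sub, Matrix.sub_mul,
      Matrix.mul_assoc]; abel
  rw [e1, hX, hY, hXY, hYX] at p0
  have e2 : L * cj V (fun i => 1 + b i) * L = L * cj V c := by
    rw [hL, cj_mul hV, cj_mul hV, cj_mul hV]
    refine cj_congr _ fun i => ?_
    have := b1 i
    rw [hl]; field_simp
  have e3 : cj V (fun i => 1 - b i) = cj V c * L := by
    rw [hL, cj_mul hV]
    refine cj_congr _ fun i => ?_
    have := b1 i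
    rw [hl]; field_simp; rw [c2]; ring
  simp only [Matrix.mul_sub, Matrix.sub_mul, Matrix.mul_add, rt_add, rt_sub, e2, e3] at p0
  have e4 : rt (Ξ * (L * Γ)) + rt (Ξ * (Γ * L)) = rt (N * Γ) := by
    rw [← ly, Matrix.add_mul, rt_add, ← Matrix.mul_assoc Ξ Γ, rt_comm (Ξ * Γ)]
    simp only [Matrix.mul_assoc]; ring
  have e5 : rt (Ξ * (L * cj V c)) + rt (Ξ * (cj V c * L)) = rt (N * cj V c) := by
    rw [← ly, Matrix.add_mul, rt_add, ← Matrix.mul_assoc Ξ (cj V c), rt_comm (Ξ * cj V c)]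
    simp only [Matrix.mul_assoc]; ring
  have hP : (L * Ξ * L + Ξ).PosSemidef := by
    have := hΞp.conjTranspose_mul_mul_same L
    rw [hLh] at this
    exact this.add hΞp
  have p1 := rt_mul_nonneg hP hE
  have e6 : rt (Ξ * (L * E * L)) + rt (Ξ * E) = rt ((L * Ξ * L + Ξ) * E) := by
    rw [Matrix.add_mul, rt_add, ← Matrix.mul_assoc Ξ, rt_comm (Ξ * (L * E))]
    simp only [Matrix.mul_assoc]
  rw [Matrix.mul_sub, rt_sub, Matrix.mul_smul, rt_smul] at p1
  have p2 : rt (Ni * cj V fun i => (c i)⁻¹) ≤ rt ((L * Ξ * L + Ξ) * (Ni * Ni)) := by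
    have e7 : L * Ξ * L = ∑ a, cj V (fun i => l i * G i a) * N * cj V (fun i => l i * G i a) := by
      rw [hΞ, Matrix.mul_sum, Matrix.sum_mul]
      refine sum_congr rfl fun a _ => ?_
      rw [← Matrix.mul_assoc, ← Matrix.mul_assoc, Matrix.mul_assoc _ _ L, hL, cj_mul hV, cj_mul hV]
      congr 1
      exact cj_congr _ fun i => mul_comm _ _
    have e8 : (cj V fun i => (c i)⁻¹) = ∑ a, (cj V (fun i => l i * G i a) *
        cj V (fun i => l i * G i a) + cj V (fun i => G i a) * cj V (fun i => G i a)) := by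
      simp only [cj_mul hV, cj_add]
      have : ∀ (s : Finset n) (f : n → n → ℝ), ∑ a ∈ s, cj V (f a) =
          cj V fun i => ∑ a ∈ s, f a i := by
        intro s f
        induction s using Finset.induction_on with
        | empty => simp [cj]
        | insert a s ha ih => simp only [sum_insert ha, ih, cj_add]
      rw [this]
      refine cj_congr _ fun i => ?_
      have : ∑ a, (l i * G i a * (l i * G i a) + G i a * G i a) =
          (l i ^ 2 + 1) * ∑ a, G i a * G i a := by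
        rw [mul_sum]; exact sum_congr rfl fun a _ => by ring
      rw [this, hG, hl]
      have := b1 i; have := c0 i
      field_simp
      rw [c2]; ring
    rw [e7, hΞ, ← sum_add_distrib, Matrix.sum_mul, rt_comm, e8, Matrix.sum_mul, rt_sum, rt_sum]
    refine sum_le_sum fun a _ => ?_
    rw [Matrix.add_mul, Matrix.add_mul, rt_add, rt_add]
    exact add_le_add (sos1 hN h1 h2 hNi (cj_herm _ _)) (sos1 hN h1 h2 hNi (cj_herm _ _))
  have := mul_le_mul_of_nonneg_left p2 hδ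
  linarith

lemma amgm {S Z Zi : Matrix n n ℂ} (hS : Sᴴ = S) (h : Z * Zi = 1) :
    2 * rt S ≤ rt (Z * Zᴴ * (S * S)) + rt (Ziᴴ * Zi) := by
  have p := rt_ctm_nonneg (Zᴴ * S - Zi)
  simp only [conjTranspose_sub, conjTranspose_mul, conjTranspose_conjTranspose, hS,
    Matrix.mul_sub, Matrix.sub_mul, rt_sub] at p
  have e1 : rt (S * Z * Zi) = rt S := by rw [Matrix.mul_assoc, h, Matrix.mul_one]
  have e2 : rt (Ziᴴ * (Zᴴ * S)) = rt S := by
    rw [← Matrix.mul_assoc, ← conjTranspose_mul, h]; simp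
  have e3 : rt (S * Z * (Zᴴ * S)) = rt (Z * Zᴴ * (S * S)) := by
    rw [Matrix.mul_assoc, rt_comm]; simp only [Matrix.mul_assoc]
  linarith

omit [DecidableEq n] in
lemma comm_sq {A B : Matrix n n ℂ} (hA : Aᴴ = A) (hB : Bᴴ = B) :
    rt (A * B * (A * B)) ≤ rt (A * A * (B * B)) := by
  have p := rt_ctm_nonneg (A * B - B * A)
  simp only [conjTranspose_sub, conjTranspose_mul, hA, hB, Matrix.mul_sub, Matrix.sub_mul,
    rt_sub] at p
  have e1 : rt (B * A * (A * B)) = rt (A * A * (B * B)) := by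
    rw [Matrix.mul_assoc, rt_comm]; simp only [Matrix.mul_assoc]
  have e2 : rt (A * B * (B * A)) = rt (A * A * (B * B)) := by
    rw [← Matrix.mul_assoc, rt_comm]; simp only [Matrix.mul_assoc]
  have e3 : rt (B * A * (B * A)) = rt (A * B * (A * B)) := by
    rw [Matrix.mul_assoc, rt_comm]; simp only [Matrix.mul_assoc]
  linarith

/-! ### The calibration -/

noncomputable def nu (κ : n → ℝ) (s : ℝ) (j : n) : ℝ := √(κ j ^ 2 + s)
noncomputable def Dh (U : Matrix n n ℂ) (κ : n → ℝ) (s : ℝ) : Matrix n n ℂ :=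
  cj U fun j => (√(nu κ s j))⁻¹
noncomputable def Nh (U : Matrix n n ℂ) (κ : n → ℝ) (s : ℝ) : Matrix n n ℂ :=
  cj U fun j => √(nu κ s j)
noncomputable def bet (U : Matrix n n ℂ) (κ : n → ℝ) (s : ℝ) (Y : Matrix n n ℂ) : Matrix n n ℂ :=
  Dh U κ s * Y * Dh U κ s
noncomputable def cs (t : ℝ) : ℝ := √(1 - t ^ 2)
noncomputable def ci (ρ t : ℝ) : ℝ := (√(max (1 - t ^ 2) (1 - ρ ^ 2)))⁻¹
noncomputable def Rf (U : Matrix n n ℂ) (κ : n → ℝ) (s : ℝ) (Y : Matrix n n ℂ) : ℝ :=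
  rt (cj U (nu κ s) * fc cs (bet U κ s Y))
noncomputable def Gi (ρ : ℝ) (U : Matrix n n ℂ) (κ : n → ℝ) (s : ℝ) (Y : Matrix n n ℂ) :
    Matrix n n ℂ := Dh U κ s * fc (ci ρ) (bet U κ s Y) * Dh U κ s

def Adm (U : Matrix n n ℂ) (κ : n → ℝ) (Y : Matrix n n ℂ) : Prop :=
  (cj U κ - Y).PosSemidef ∧ (cj U κ + Y).PosSemidef

lemma Adm.herm {U Y : Matrix n n ℂ} {κ : n → ℝ} (h : Adm U κ Y) : Yᴴ = Y := by
  have := h.2.isHermitian.eq
  rw [conjTranspose_add, cj_herm] at this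
  exact add_left_cancel this

omit [Fintype n] [DecidableEq n] in
lemma nu_pos (κ : n → ℝ) {s : ℝ} (hs : 0 < s) (j : n) : 0 < nu κ s j :=
  Real.sqrt_pos.2 (by positivity)

omit [Fintype n] [DecidableEq n] in
lemma nu_sq (κ : n → ℝ) {s : ℝ} (hs : 0 < s) (j : n) : nu κ s j ^ 2 = κ j ^ 2 + s :=
  Real.sq_sqrt (by positivity)

section
variable {U Y : Matrix n n ℂ} (hU : Un U) (κ : n → ℝ) {s : ℝ} (hs : 0 < s)
include hU hs

lemma Nh_Dh : Nh U κ s * Dh U κ s = 1 := by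
  rw [Nh, Dh, cj_mul hU, ← cj_one hU]
  exact cj_congr _ fun j => mul_inv_cancel₀ (Real.sqrt_pos.2 (nu_pos κ hs j)).ne'

lemma Dh_Nh : Dh U κ s * Nh U κ s = 1 := by
  rw [Nh, Dh, cj_mul hU, ← cj_one hU]
  exact cj_congr _ fun j => inv_mul_cancel₀ (Real.sqrt_pos.2 (nu_pos κ hs j)).ne'

lemma Nh_Nh : Nh U κ s * Nh U κ s = cj U (nu κ s) := by
  rw [Nh, cj_mul hU]
  exact cj_congr _ fun j => Real.mul_self_sqrt (nu_pos κ hs j).le

lemma Dh_Dh : Dh U κ s * Dh U κ s = cj U fun j => (nu κ s j)⁻¹ := by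
  rw [Dh, cj_mul hU]
  exact cj_congr _ fun j => by rw [← mul_inv, Real.mul_self_sqrt (nu_pos κ hs j).le]

lemma Dh_N_Dh : Dh U κ s * cj U (nu κ s) * Dh U κ s = 1 := by
  rw [← Nh_Nh hU κ hs, ← Matrix.mul_assoc, Dh_Nh hU κ hs, Matrix.one_mul, Nh_Dh hU κ hs]

lemma Nh_bet (Y : Matrix n n ℂ) : Nh U κ s * bet U κ s Y * Nh U κ s = Y := by
  rw [bet]
  calc _ = (Nh U κ s * Dh U κ s) * Y * (Dh U κ s * Nh U κ s) := by simp only [Matrix.mul_assoc]
    _ = _ := by rw [Nh_Dh hU κ hs, Dh_Nh hU κ hs]; simp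

lemma bet_spec (h : Adm U κ Y) {ρ : ℝ} (hρ : ∀ j, κ j ≤ ρ * nu κ s j) :
    ∃ V b, Un V ∧ bet U κ s Y = cj V b ∧ ∀ i, b i ∈ Set.Icc (-ρ) ρ := by
  have hD : (Dh U κ s)ᴴ = Dh U κ s := cj_herm _ _
  obtain ⟨V, b, hV, e⟩ := spec (X := bet U κ s Y) (by
    simp only [bet, conjTranspose_mul, hD, h.herm, Matrix.mul_assoc])
  refine ⟨V, b, hV, e, fun i => ?_⟩
  have p0 : (cj U fun j => ρ * nu κ s j - κ j).PosSemidef := psd_cj _ fun j => by linarith [hρ j]
  have q1 := (p0.add h.1).conjTranspose_mul_mul_same (Dh U κ s)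
  have q2 := (p0.add h.2).conjTranspose_mul_mul_same (Dh U κ s)
  rw [← cj_sub, ← cj_smul, hD, sub_add_sub_cancel, Matrix.mul_sub, Matrix.sub_mul, Matrix.mul_smul,
    Matrix.smul_mul, Dh_N_Dh hU κ hs, ← bet, e, ← cj_const hV, cj_sub] at q1
  rw [← cj_sub, ← cj_smul, hD, ← add_assoc, sub_add_cancel, Matrix.mul_add, Matrix.add_mul, Matrix.mul_smul,
    Matrix.smul_mul, Dh_N_Dh hU κ hs, ← bet, e, ← cj_const hV, cj_add] at q2
  have := (psd_cj_iff hV).1 q1 i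
  have := (psd_cj_iff hV).1 q2 i
  constructor <;> linarith

end

lemma ci_eq {ρ t : ℝ} (ht : t ∈ Set.Icc (-ρ) ρ) : ci ρ t = (√(1 - t ^ 2))⁻¹ := by
  rw [ci, max_eq_left]
  have := sq_le_sq' ht.1 ht.2
  linarith

lemma abs_lt_of_mem {ρ t : ℝ} (h : ρ < 1) (ht : t ∈ Set.Icc (-ρ) ρ) : |t| < 1 :=
  abs_lt.2 ⟨by linarith [ht.1], by linarith [ht.2]⟩

lemma one_sub_sq_pos {t : ℝ} (h : |t| < 1) : 0 < 1 - t ^ 2 := by
  have := abs_lt.1 h; nlinarith

section
variable {U Y : Matrix n n ℂ} (hU : Un U) {κ : n → ℝ} (h : Adm U κ Y) {ρ : ℝ} (hρ1 : ρ < 1)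
include hU h hρ1

lemma step {s t : ℝ} (hs : 0 < s) (hst : s ≤ t) (hρ : ∀ j, κ j ≤ ρ * nu κ s j)
    (hρ' : ∀ j, κ j ≤ ρ * nu κ t j) :
    Rf U κ s Y ≤ Rf U κ t Y - (t - s) / 2 * rt (Gi ρ U κ t Y) := by
  have ht : 0 < t := hs.trans_le hst
  obtain ⟨V, b, hV, e, hb⟩ := bet_spec hU κ ht h hρ'
  obtain ⟨V0, b0, hV0, e0, hb0⟩ := bet_spec hU κ hs h hρ
  have hb1 := fun i => abs_lt_of_mem hρ1 (hb i)
  have hb2 := fun i => abs_lt_of_mem hρ1 (hb0 i)
  have hD : (Dh U κ t)ᴴ = Dh U κ t := cj_herm _ _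
  have hN : (Nh U κ s)ᴴ = Nh U κ s := cj_herm _ _
  have gen : ∀ f g : n → ℝ, (Dh U κ t * Nh U κ s * cj V0 f) * (Dh U κ t * Nh U κ s * cj V0 g)ᴴ =
      Dh U κ t * (Nh U κ s * cj V0 (fun i => f i * g i) * Nh U κ s) * Dh U κ t := by
    intro f g
    rw [← cj_mul hV0]
    simp only [conjTranspose_mul, hD, hN, cj_herm, Matrix.mul_assoc]
  have eE : Dh U κ t * cj U (nu κ s) * Dh U κ t =
      1 - cj U fun j => (nu κ t j - nu κ s j) / nu κ t j := by
    rw [Dh, cj_mul hU, cj_mul hU, ← cj_one hU, cj_sub]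
    refine cj_congr _ fun j => ?_
    have h1 := nu_pos κ ht j
    have h2 := Real.sqrt_pos.2 h1
    have h3 := Real.mul_self_sqrt h1.le
    field_simp
    rw [sq, h3]; ring
  have key := core (N := cj U (nu κ t)) (Ni := cj U fun j => (nu κ t j)⁻¹)
    (X := Dh U κ t * Nh U κ s * cj V0 fun i => √(1 + b0 i))
    (Y := Dh U κ t * Nh U κ s * cj V0 fun i => √(1 - b0 i))
    (Γ := Dh U κ t * (Nh U κ s * fc cs (bet U κ s Y) * Nh U κ s) * Dh U κ t)
    (E := cj U fun j => (nu κ t j - nu κ s j) / nu κ t j) hV hb1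
    (psd_cj _ fun j => (nu_pos κ ht j).le)
    (by rw [cj_mul hU, ← cj_one hU]; exact cj_congr _ fun j => mul_inv_cancel₀ (nu_pos κ ht j).ne')
    (by rw [cj_mul hU, ← cj_one hU]; exact cj_congr _ fun j => inv_mul_cancel₀ (nu_pos κ ht j).ne')
    (cj_herm _ _)
    (by
      rw [gen, cj_congr V0 (e := fun i => 1 + b0 i) fun i => Real.mul_self_sqrt
        (by have := (abs_lt.1 (hb2 i)).1; linarith), ← cj_add, ← cj_add, cj_one hV0, cj_one hV,
        ← e0, ← e, Matrix.mul_add, Matrix.add_mul, Nh_bet hU κ hs, Matrix.mul_one, Nh_Nh hU κ hs,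
        Matrix.mul_add, Matrix.add_mul, eE, bet]; abel)
    (by
      rw [gen, cj_congr V0 (e := fun i => 1 - b0 i) fun i => Real.mul_self_sqrt
        (by have := (abs_lt.1 (hb2 i)).2; linarith), ← cj_sub, ← cj_sub, cj_one hV0, cj_one hV,
        ← e0, ← e, Matrix.mul_sub, Matrix.sub_mul, Nh_bet hU κ hs, Matrix.mul_one, Nh_Nh hU κ hs,
        Matrix.mul_sub, Matrix.sub_mul, eE, bet]; abel)
    (by
      rw [gen, e0, fc_cj hV0]
      congr 5; funext i
      rw [← Real.sqrt_mul (by have := (abs_lt.1 (hb2 i)).1; linarith), cs]; congr 1; ring)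
    (by
      rw [gen, e0, fc_cj hV0]
      congr 5; funext i
      rw [← Real.sqrt_mul (by have := (abs_lt.1 (hb2 i)).2; linarith), cs]; congr 1; ring)
    (δ := (t - s) / 2) (by linarith)
    (by
      rw [cj_mul hU, cj_smul, cj_sub]
      refine psd_cj _ fun j => ?_
      have h1 := nu_pos κ ht j
      have h2 := nu_pos κ hs j
      have h3 := nu_sq κ ht j
      have h4 := nu_sq κ hs j
      have h5 : nu κ s j ≤ nu κ t j := Real.sqrt_le_sqrt (by linarith)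
      have : (nu κ t j - nu κ s j) / nu κ t j - (t - s) / 2 * ((nu κ t j)⁻¹ * (nu κ t j)⁻¹) =
          (nu κ t j - nu κ s j) ^ 2 / (2 * nu κ t j ^ 2) := by
        field_simp; nlinarith
      rw [this]; positivity)
  have e1 : rt (cj U (nu κ t) * (Dh U κ t * (Nh U κ s * fc cs (bet U κ s Y) * Nh U κ s) *
      Dh U κ t)) = Rf U κ s Y := by
    rw [← Matrix.mul_assoc, rt_comm, ← Matrix.mul_assoc, ← Matrix.mul_assoc, Dh_N_Dh hU κ ht,
      Matrix.one_mul, rt_comm, ← Matrix.mul_assoc, Nh_Nh hU κ hs, Rf]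
  have e2 : rt (Gi ρ U κ t Y) =
      rt ((cj U fun j => (nu κ t j)⁻¹) * cj V fun i => (√(1 - b i ^ 2))⁻¹) := by
    rw [Gi, rt_comm, ← Matrix.mul_assoc, Dh_Dh hU κ ht, e, fc_cj hV]
    congr 3; funext i; exact ci_eq (hb i)
  rw [e1, ← e2] at key
  rw [Rf, Rf] at *
  rw [e, fc_cj hV]
  exact key

lemma amgm' {s : ℝ} (hs : 0 < s) (hρ : ∀ j, κ j ≤ ρ * nu κ s j) {S : Matrix n n ℂ}
    (hS : Sᴴ = S) : 2 * rt S ≤ rt (Gi ρ U κ s Y * (S * S)) + Rf U κ s Y := by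
  obtain ⟨V, b, hV, e, hb⟩ := bet_spec hU κ hs h hρ
  have c0 : ∀ i, 0 < √(1 - b i ^ 2) := fun i =>
    Real.sqrt_pos.2 (one_sub_sq_pos (abs_lt_of_mem hρ1 (hb i)))
  have hD : (Dh U κ s)ᴴ = Dh U κ s := cj_herm _ _
  have hN : (Nh U κ s)ᴴ = Nh U κ s := cj_herm _ _
  have := amgm (Z := Dh U κ s * cj V fun i => (√(√(1 - b i ^ 2)))⁻¹)
    (Zi := (cj V fun i => √(√(1 - b i ^ 2))) * Nh U κ s) hS (by
      rw [Matrix.mul_assoc, ← Matrix.mul_assoc (cj V _), cj_mul hV,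
        cj_congr V (e := fun _ => 1) fun i => inv_mul_cancel₀ (Real.sqrt_pos.2 (c0 i)).ne',
        cj_one hV, Matrix.one_mul, Dh_Nh hU κ hs])
  have g1 : Gi ρ U κ s Y = (Dh U κ s * cj V fun i => (√(√(1 - b i ^ 2)))⁻¹) *
      (Dh U κ s * cj V fun i => (√(√(1 - b i ^ 2)))⁻¹)ᴴ := by
    rw [Gi, e, fc_cj hV, conjTranspose_mul, cj_herm, hD, Matrix.mul_assoc (Dh U κ s),
      Matrix.mul_assoc (Dh U κ s), ← Matrix.mul_assoc (cj V _) (cj V _), cj_mul hV]
    congr 3; funext i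
    rw [ci_eq (hb i), ← mul_inv, Real.mul_self_sqrt (c0 i).le]
  rw [g1]
  convert this using 2
  · rw [Rf, e, fc_cj hV, conjTranspose_mul, cj_herm, hN, Matrix.mul_assoc,
      ← Matrix.mul_assoc (cj V _) (cj V _), cj_mul hV, ← Matrix.mul_assoc, rt_comm _ (Nh U κ s),
      ← Matrix.mul_assoc, Nh_Nh hU κ hs]
    congr 3; funext i
    rw [Real.mul_self_sqrt (c0 i).le, cs]

lemma flow_id {s : ℝ} (hs : 0 < s) (hρ : ∀ j, κ j ≤ ρ * nu κ s j) :
    rt (Gi ρ U κ s Y * (cj U κ * cj U κ - Y * Y)) = Rf U κ s Y - s * rt (Gi ρ U κ s Y) := by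
  obtain ⟨V, b, hV, e, hb⟩ := bet_spec hU κ hs h hρ
  have c0 : ∀ i, 0 < 1 - b i ^ 2 := fun i => one_sub_sq_pos (abs_lt_of_mem hρ1 (hb i))
  have e1 : cj U κ * cj U κ = cj U (nu κ s) * cj U (nu κ s) - s • (1 : Matrix n n ℂ) := by
    rw [cj_mul hU, cj_mul hU, ← cj_const hU, cj_sub]
    exact cj_congr _ fun j => by have := nu_sq κ hs j; linarith
  have e2 : rt (Gi ρ U κ s Y * (cj U (nu κ s) * cj U (nu κ s))) =
      rt (cj U (nu κ s) * fc (ci ρ) (bet U κ s Y)) := by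
    rw [Gi, Matrix.mul_assoc, Matrix.mul_assoc, rt_comm, Matrix.mul_assoc, rt_comm]
    congr 2
    rw [Dh, cj_mul hU, cj_mul hU, cj_mul hU]
    refine cj_congr _ fun j => ?_
    have h1 := nu_pos κ hs j
    have h2 := Real.sqrt_pos.2 h1
    have h3 := Real.mul_self_sqrt h1.le
    field_simp
    nlinarith
  have e3 : rt (Gi ρ U κ s Y * (Y * Y)) = rt (cj U (nu κ s) *
      (bet U κ s Y * fc (ci ρ) (bet U κ s Y) * bet U κ s Y)) := by
    have : Dh U κ s * (Y * Y) * Dh U κ s = bet U κ s Y * cj U (nu κ s) * bet U κ s Y := by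
      rw [← Nh_Nh hU κ hs, bet]
      calc _ = Dh U κ s * Y * (Dh U κ s * Nh U κ s) * (Nh U κ s * Dh U κ s) * Y * Dh U κ s := by
            rw [Nh_Dh hU κ hs, Dh_Nh hU κ hs]; simp only [Matrix.mul_assoc, Matrix.one_mul]
        _ = _ := by simp only [Matrix.mul_assoc]
    rw [Gi, Matrix.mul_assoc, Matrix.mul_assoc, rt_comm, Matrix.mul_assoc, this,
      ← Matrix.mul_assoc, rt_comm, ← Matrix.mul_assoc, ← Matrix.mul_assoc, rt_comm]
  rw [e1, Matrix.mul_sub, Matrix.mul_sub, rt_sub, rt_sub, e2, e3, Matrix.mul_smul, rt_smul,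
    Matrix.mul_one, Rf, sub_right_comm, ← rt_sub, ← Matrix.mul_sub, e, fc_cj hV, fc_cj hV,
    cj_mul hV, cj_mul hV, cj_sub]
  congr 4; funext i
  rw [ci_eq (hb i), cs]
  have h2 := Real.sqrt_pos.2 (c0 i)
  have h3 := Real.mul_self_sqrt (c0 i).le
  field_simp
  nlinarith

lemma Rf_le {s : ℝ} (hs : 0 < s) (hρ : ∀ j, κ j ≤ ρ * nu κ s j) :
    2 * √s * Rf U κ s Y ≤ rt (cj U κ * cj U κ - Y * Y) + 2 * Fintype.card n * s := by
  obtain ⟨V, b, hV, e, hb⟩ := bet_spec hU κ hs h hρ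
  have c0 : ∀ i, 0 < 1 - b i ^ 2 := fun i => one_sub_sq_pos (abs_lt_of_mem hρ1 (hb i))
  have hN : (Nh U κ s)ᴴ = Nh U κ s := cj_herm _ _
  have e1 : cj U κ * cj U κ = cj U (nu κ s) * cj U (nu κ s) - s • (1 : Matrix n n ℂ) := by
    rw [cj_mul hU, cj_mul hU, ← cj_const hU, cj_sub]
    exact cj_congr _ fun j => by have := nu_sq κ hs j; linarith
  set C := fc cs (bet U κ s Y) with hC
  have hCh : Cᴴ = C := by rw [hC, e, fc_cj hV, cj_herm]
  have hB : (bet U κ s Y)ᴴ = bet U κ s Y := by rw [e, cj_herm]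
  have sq1 : C * C + bet U κ s Y * bet U κ s Y = 1 := by
    rw [hC, e, fc_cj hV, cj_mul hV, cj_mul hV, cj_add, ← cj_one hV]
    refine cj_congr _ fun i => ?_
    rw [cs, Real.mul_self_sqrt (c0 i).le]; ring
  have gen : ∀ A : Matrix n n ℂ, rt (Nh U κ s * A * Nh U κ s * (Nh U κ s * A * Nh U κ s)) =
      rt (A * cj U (nu κ s) * (A * cj U (nu κ s))) := by
    intro A
    rw [← Nh_Nh hU κ hs, Matrix.mul_assoc, Matrix.mul_assoc, rt_comm]
    simp only [Matrix.mul_assoc]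
  have p1 := comm_sq hCh (cj_herm U (nu κ s))
  have p2 := comm_sq hB (cj_herm U (nu κ s))
  rw [← gen] at p1 p2
  rw [Nh_bet hU κ hs] at p2
  have p3 : rt (C * C * (cj U (nu κ s) * cj U (nu κ s))) +
      rt (bet U κ s Y * bet U κ s Y * (cj U (nu κ s) * cj U (nu κ s))) =
      rt (cj U (nu κ s) * cj U (nu κ s)) := by
    rw [← rt_add, ← Matrix.add_mul, sq1, Matrix.one_mul]
  have p4 := rt_ctm_nonneg (Nh U κ s * C * Nh U κ s - √s • (1 : Matrix n n ℂ))
  have hG : (Nh U κ s * C * Nh U κ s)ᴴ = Nh U κ s * C * Nh U κ s := by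
    simp only [conjTranspose_mul, hN, hCh, Matrix.mul_assoc]
  have e2 : rt (Nh U κ s * C * Nh U κ s) = Rf U κ s Y := by
    rw [rt_comm, ← Matrix.mul_assoc, Nh_Nh hU κ hs, Rf]
  rw [conjTranspose_sub, hG, conjTranspose_smul, conjTranspose_one, star_trivial] at p4
  simp only [Matrix.mul_sub, Matrix.sub_mul, rt_sub, Matrix.mul_smul, Matrix.smul_mul,
    Matrix.mul_one, Matrix.one_mul, rt_smul, rt_one, e2] at p4
  rw [e1, rt_sub, rt_sub, rt_smul, rt_one]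
  have := Real.mul_self_sqrt hs.le
  have h5 : √s * (√s * Fintype.card n) = s * Fintype.card n := by rw [← mul_assoc, this]
  linarith

omit hρ1 in
lemma Rf_nonneg {s : ℝ} (hs : 0 < s) (hρ : ∀ j, κ j ≤ ρ * nu κ s j) : 0 ≤ Rf U κ s Y := by
  obtain ⟨V, b, hV, e, hb⟩ := bet_spec hU κ hs h hρ
  rw [Rf, e, fc_cj hV]
  exact rt_mul_nonneg (psd_cj _ fun j => (nu_pos κ hs j).le) (psd_cj _ fun i => Real.sqrt_nonneg _)

end

end Vale.Agent.P371
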