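import Mathlib

namespace Vale.Agent.P371.LT

open MeasureTheory Matrix
open scoped ComplexOrder ENNReal

/-- `ψ ∈ H¹(ℝ; ℂ^m)` (continuous representative) with weak derivative `g`. -/
structure IsH1 {m : ℕ} (ψ g : ℝ → Fin m → ℂ) : Prop where
  memL2 : MemLp ψ 2 volume
  deriv_memL2 : MemLp g 2 volume
  eq_integral : ∀ x y : ℝ, ψ y - ψ x = ∫ t in x..y, g t

/-- `tr (A^p)`, the power taken by the functional calculus. -/
noncomputable def trPow {m : ℕ} (p : ℝ) (A : Matrix (Fin m) (Fin m) ℂ) : ℝ :=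
  (cfc (fun t : ℝ => t ^ p) A).trace.re

/-- Measurable, Hermitian positive semidefinite, `∫ tr W^p < ∞`. -/
structure IsPotential {m : ℕ} (p : ℝ) (W : ℝ → Matrix (Fin m) (Fin m) ℂ) : Prop where
  measurable : ∀ i j, Measurable fun x => W x i j
  posSemidef : ∀ x, (W x).PosSemidef
  integrable : Integrable fun x => trPow p (W x)

/-- `H_W ψ = lam ψ` for the operator of the form `∫ ‖ψ'‖² - ∫ ⟨ψ, W ψ⟩` on `H¹`. -/
def IsEigen {m : ℕ} (W : ℝ → Matrix (Fin m) (Fin m) ℂ) (lam : ℝ) (ψ : ℝ → Fin m → ℂ) : Prop :=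
  ∃ g, IsH1 ψ g ∧ ∀ φ h : ℝ → Fin m → ℂ, IsH1 φ h →
    (∫ x, star (h x) ⬝ᵥ g x) - (∫ x, star (φ x) ⬝ᵥ (W x *ᵥ ψ x)) =
      (lam : ℂ) * ∫ x, star (φ x) ⬝ᵥ ψ x

/-- `Tr (H_W)_-^γ`: supremum of `∑ |λ_j|^γ` over finite orthonormal families of eigenfunctions
with negative eigenvalues. -/
noncomputable def riesz {m : ℕ} (γ : ℝ) (W : ℝ → Matrix (Fin m) (Fin m) ℂ) : ℝ≥0∞ :=
  ⨆ (N : ℕ) (lam : Fin N → ℝ) (ψ : Fin N → ℝ → Fin m → ℂ)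
    (_ : ∀ j, lam j < 0 ∧ IsEigen W (lam j) (ψ j))
    (_ : ∀ i j, ∫ x, star (ψ i x) ⬝ᵥ ψ j x = if i = j then 1 else 0),
    ENNReal.ofReal (∑ j, |lam j| ^ γ)

/-- The sharp constant `L_γ(m)`. -/
noncomputable def L (γ : ℝ) (m : ℕ) : ℝ≥0∞ :=
  ⨆ (W : ℝ → Matrix (Fin m) (Fin m) ℂ) (_ : IsPotential (γ + 1 / 2) W)
    (_ : 0 < ∫ x, trPow (γ + 1 / 2) (W x)),
    riesz γ W / ENNReal.ofReal (∫ x, trPow (γ + 1 / 2) (W x))

/-- The semiclassical constant. -/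
noncomputable def Lcl (γ : ℝ) : ℝ := Real.Gamma (γ + 1) / (2 * √Real.pi * Real.Gamma (γ + 3 / 2))

/-- The one-bound-state constant. -/
noncomputable def Lone (γ : ℝ) : ℝ := 2 * ((γ - 1 / 2) / (γ + 1 / 2)) ^ (γ - 1 / 2) * Lcl γ

end Vale.Agent.P371.LT
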