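import Mathlib

namespace Vale.Agent.P371

open MeasureTheory Filter Topology Set

variable {E F G : Type*} [NormedAddCommGroup E] [NormedSpace ℝ E] [CompleteSpace E]
  [NormedAddCommGroup F] [NormedSpace ℝ F] [CompleteSpace F]
  [NormedAddCommGroup G] [NormedSpace ℝ G] [CompleteSpace G]

/-- `f` is a primitive of the integrable function `f'` on `[a,b]` -/
def PrimOn (f f' : ℝ → E) (a b : ℝ) : Prop :=
  IntegrableOn f' (Icc a b) ∧ ∀ x ∈ Icc a b, f x - f a = ∫ t in a..x, f' t

omit [CompleteSpace E] in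
lemma PrimOn.cont {f f' : ℝ → E} {a b : ℝ} (hab : a ≤ b) (h : PrimOn f f' a b) :
    ContinuousOn f (Icc a b) := by
  have := intervalIntegral.continuousOn_primitive_interval (μ := volume) (f := f') (a := a)
    (b := b) (by rw [uIcc_of_le hab]; exact h.1)
  rw [uIcc_of_le hab] at this
  exact (this.add_const (f a)).congr fun x hx => by simp [← h.2 x hx]

lemma primOn_of_deriv {f f' : ℝ → E} {a b : ℝ}
    (h : ∀ x ∈ Icc a b, HasDerivWithinAt f (f' x) (Icc a b) x) (hc : ContinuousOn f' (Icc a b)) :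
    PrimOn f f' a b := by
  refine ⟨hc.integrableOn_Icc, fun x hx => ?_⟩
  have sub : Icc a x ⊆ Icc a b := Icc_subset_Icc_right hx.2
  exact (intervalIntegral.integral_eq_sub_of_hasDerivAt_of_le hx.1
    (fun y hy => ((h y (sub hy)).continuousWithinAt).mono sub)
    (fun y hy => (h y (sub (Ioo_subset_Icc_self hy))).hasDerivAt
      (Icc_mem_nhds hy.1 (hy.2.trans_le hx.2)))
    ((hc.mono sub).intervalIntegrable_of_Icc hx.1)).symm

omit [CompleteSpace E] [CompleteSpace F] [CompleteSpace G] in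
lemma int_bil (B : E →L[ℝ] F →L[ℝ] G) {f : ℝ → E} {g : ℝ → F} {a b : ℝ}
    (hf : IntegrableOn f (Icc a b)) (hg : ContinuousOn g (Icc a b)) :
    IntegrableOn (fun t => B (f t) (g t)) (Icc a b) := by
  obtain ⟨C, hC⟩ := isCompact_Icc.exists_bound_of_continuousOn hg
  refine ((hf.norm.const_mul ‖B‖).mul_const C).mono'
    (B.aestronglyMeasurable_comp₂ hf.1 (hg.aestronglyMeasurable measurableSet_Icc)) ?_
  filter_upwards [ae_restrict_mem measurableSet_Icc] with t ht
  exact (B.le_opNorm₂ _ _).trans (by gcongr; exact hC t ht)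

lemma prim_mul0 (B : E →L[ℝ] F →L[ℝ] G) {f f' : ℝ → E} {g g' : ℝ → F} {a b : ℝ} (hab : a ≤ b)
    (hf : PrimOn f f' a b) (hg : PrimOn g g' a b) :
    B (f b) (g b) - B (f a) (g a) = ∫ t in a..b, (B (f' t) (g t) + B (f t) (g' t)) := by
  have i1 := int_bil B hf.1 (hg.cont hab)
  have i2 : IntegrableOn (fun t => B (f t) (g' t)) (Icc a b) := int_bil B.flip hg.1 (hf.cont hab)
  have i3 : IntegrableOn (fun t => B (f' t) (g a)) (Icc a b) := (B.flip (g a)).integrable_comp hf.1
  have hi : Integrable (Function.uncurry fun t s => (Iic t).indicator (fun s => B (f' t) (g' s)) s)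
      ((volume.restrict (Icc a b)).prod (volume.restrict (Icc a b))) := by
    have := (Integrable.op_fst_snd (op := fun x y => B x y) B.continuous₂
      ⟨‖B‖, fun x y => B.le_opNorm₂ x y⟩ hf.1 hg.1).indicator
      (measurableSet_le measurable_snd measurable_fst)
    refine this.congr (Eventually.of_forall fun p => ?_)
    simp [Function.uncurry, indicator]
  have sw := integral_integral_swap hi
  have e1 : ∫ t in Icc a b, ∫ s in Icc a b, (Iic t).indicator (fun s => B (f' t) (g' s)) s =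
      ∫ t in Icc a b, (B (f' t) (g t) - B (f' t) (g a)) := by
    refine setIntegral_congr_fun measurableSet_Icc fun t ht => ?_
    have : Icc a b ∩ Iic t = Icc a t := by
      ext s; simp only [mem_inter_iff, mem_Icc, mem_Iic]
      exact ⟨fun h => ⟨h.1.1, h.2⟩, fun h => ⟨⟨h.1, h.2.trans ht.2⟩, h.2⟩⟩
    rw [setIntegral_indicator measurableSet_Iic, this, ← map_sub, hg.2 t ht,
      intervalIntegral.integral_of_le ht.1, ← integral_Icc_eq_integral_Ioc,
      (B (f' t)).integral_comp_comm (hg.1.mono_set (Icc_subset_Icc_right ht.2))]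
  have e2 : ∫ s in Icc a b, ∫ t in Icc a b, (Iic t).indicator (fun s => B (f' t) (g' s)) s =
      ∫ s in Icc a b, (B (f b) (g' s) - B (f s) (g' s)) := by
    refine setIntegral_congr_fun measurableSet_Icc fun s hs => ?_
    have : Icc a b ∩ Ici s = Icc s b := by
      ext t; simp only [mem_inter_iff, mem_Icc, mem_Ici]
      exact ⟨fun h => ⟨h.2, h.1.2⟩, fun h => ⟨⟨hs.1.trans h.1, h.2⟩, h.1⟩⟩
    have e : (fun t => (Iic t).indicator (fun s => B (f' t) (g' s)) s) =
        (Ici s).indicator fun t => B.flip (g' s) (f' t) := by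
      funext t; simp [indicator]
    have e' : f b - f s = ∫ t in s..b, f' t := by
      rw [← intervalIntegral.integral_interval_sub_left
        ((intervalIntegrable_iff_integrableOn_Icc_of_le hab).2 hf.1)
        ((intervalIntegrable_iff_integrableOn_Icc_of_le hs.1).2
          (hf.1.mono_set (Icc_subset_Icc_right hs.2))), ← hf.2 b ⟨hab, le_rfl⟩, ← hf.2 s hs]
      abel
    rw [e, setIntegral_indicator measurableSet_Ici, this,
      (B.flip (g' s)).integral_comp_comm (hf.1.mono_set (Icc_subset_Icc_left hs.1)),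
      integral_Icc_eq_integral_Ioc, ← intervalIntegral.integral_of_le hs.2, ← e']
    simp
  rw [e1, e2, integral_sub i1 i3,
    integral_sub ((B (f b)).integrable_comp hg.1) i2, (B (f b)).integral_comp_comm hg.1] at sw
  have e3 := (B.flip (g a)).integral_comp_comm hf.1
  simp only [ContinuousLinearMap.flip_apply] at e3
  rw [e3, integral_Icc_eq_integral_Ioc (f := f'), integral_Icc_eq_integral_Ioc (f := g'),
    ← intervalIntegral.integral_of_le hab, ← intervalIntegral.integral_of_le hab,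
    ← hf.2 b ⟨hab, le_rfl⟩, ← hg.2 b ⟨hab, le_rfl⟩] at sw
  rw [intervalIntegral.integral_of_le hab, ← integral_Icc_eq_integral_Ioc, integral_add i1 i2]
  simp only [map_sub, ContinuousLinearMap.sub_apply] at sw
  linear_combination (norm := abel) -sw

lemma PrimOn.mul (B : E →L[ℝ] F →L[ℝ] G) {f f' : ℝ → E} {g g' : ℝ → F} {a b : ℝ} (hab : a ≤ b)
    (hf : PrimOn f f' a b) (hg : PrimOn g g' a b) :
    PrimOn (fun t => B (f t) (g t)) (fun t => B (f' t) (g t) + B (f t) (g' t)) a b :=
  ⟨(int_bil B hf.1 (hg.cont hab)).add (int_bil B.flip hg.1 (hf.cont hab)), fun x hx =>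
    prim_mul0 B hx.1 ⟨hf.1.mono_set (Icc_subset_Icc_right hx.2), fun y hy =>
      hf.2 y ⟨hy.1, hy.2.trans hx.2⟩⟩ ⟨hg.1.mono_set (Icc_subset_Icc_right hx.2), fun y hy =>
      hg.2 y ⟨hy.1, hy.2.trans hx.2⟩⟩⟩

structure H1 (f g : ℝ → E) : Prop where
  mem : MemLp f 2 volume
  mem' : MemLp g 2 volume
  prim : ∀ x y, f y - f x = ∫ t in x..y, g t

omit [CompleteSpace E] in
lemma H1.primOn {f g : ℝ → E} (h : H1 f g) (a b : ℝ) : PrimOn f g a b :=
  ⟨(h.mem'.locallyIntegrable one_le_two).integrableOn_isCompact isCompact_Icc, fun x _ => h.prim a x⟩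

omit [CompleteSpace E] in
lemma H1.ii {f g : ℝ → E} (h : H1 f g) (a b : ℝ) : IntervalIntegrable g volume a b :=
  ((h.mem'.locallyIntegrable one_le_two).integrableOn_isCompact isCompact_uIcc).intervalIntegrable

omit [CompleteSpace E] in
lemma H1.cont {f g : ℝ → E} (h : H1 f g) : Continuous f :=
  continuous_iff_continuousAt.2 fun x => ((h.primOn (x - 1) (x + 1)).cont (by linarith)).continuousAt
    (Icc_mem_nhds (by linarith) (by linarith))

lemma H1.comp {f g : ℝ → E} (h : H1 f g) (L : E →L[ℝ] F) : H1 (fun x => L (f x)) fun x => L (g x) :=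
  ⟨L.comp_memLp' h.mem, L.comp_memLp' h.mem', fun x y => by
    rw [← map_sub, h.prim, L.intervalIntegral_comp_comm (h.ii x y)]⟩

omit [CompleteSpace E] in
lemma H1.sum {ι : Type*} (s : Finset ι) {f g : ι → ℝ → E} (h : ∀ i, H1 (f i) (g i)) :
    H1 (fun x => ∑ i ∈ s, f i x) fun x => ∑ i ∈ s, g i x :=
  ⟨memLp_finsetSum s fun i _ => (h i).mem, memLp_finsetSum s fun i _ => (h i).mem', fun x y => by
    rw [← Finset.sum_sub_distrib, intervalIntegral.integral_finsetSum fun i _ => (h i).ii x y]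
    exact Finset.sum_congr rfl fun i _ => (h i).prim x y⟩

omit [CompleteSpace E] [CompleteSpace F] [CompleteSpace G] in
lemma int_L2 (B : E →L[ℝ] F →L[ℝ] G) {f : ℝ → E} {g : ℝ → F} (hf : MemLp f 2 volume)
    (hg : MemLp g 2 volume) : Integrable fun t => B (f t) (g t) := by
  have := (hf.norm.integrable_mul hg.norm).const_mul ‖B‖
  refine this.mono' (B.aestronglyMeasurable_comp₂ hf.1 hg.1) (Eventually.of_forall fun t => ?_)
  simpa [mul_assoc] using B.le_opNorm₂ (f t) (g t)

lemma H1.bil_bdd (B : E →L[ℝ] F →L[ℝ] G) {f f' : ℝ → E} {g g' : ℝ → F} (hf : H1 f f')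
    (hg : H1 g g') : ∃ C, ∀ x, ‖B (f x) (g x)‖ ≤ C := by
  have hi := (int_L2 B hf.mem' hg.mem).add (int_L2 B hf.mem hg.mem')
  refine ⟨‖B (f 0) (g 0)‖ + ∫ t, ‖B (f' t) (g t) + B (f t) (g' t)‖, fun x => ?_⟩
  have key : ∀ a b, a ≤ b → ‖B (f b) (g b) - B (f a) (g a)‖ ≤
      ∫ t, ‖B (f' t) (g t) + B (f t) (g' t)‖ := fun a b hab => by
    rw [prim_mul0 B hab (hf.primOn a b) (hg.primOn a b), intervalIntegral.integral_of_le hab]
    exact (norm_integral_le_integral_norm _).trans
      (setIntegral_le_integral hi.norm (Eventually.of_forall fun _ => norm_nonneg _))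
  rcases le_total 0 x with h | h
  · have := norm_sub_norm_le (B (f x) (g x)) (B (f 0) (g 0)); linarith [key 0 x h]
  · have := norm_sub_norm_le (B (f x) (g x)) (B (f 0) (g 0))
    rw [norm_sub_rev] at this; linarith [key x 0 h]

lemma freq_small {h : ℝ → ℝ} (hi : Integrable h) {ε : ℝ} (hε : 0 < ε) :
    ∃ᶠ T in atTop, h T + h (-T) < ε := by
  by_contra hc
  rw [not_frequently] at hc
  obtain ⟨T, hT⟩ := eventually_atTop.1 hc
  have := (hi.add hi.comp_neg).measure_ge_lt_top hε
  have h2 : Ici T ⊆ {a | ε ≤ (h + fun t => h (-t)) a} := fun a ha => not_lt.1 (hT a ha)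
  simpa using (measure_mono h2).trans_lt this

end Vale.Agent.P371
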