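import Mathlib

namespace Vale.Agent.P371

open MeasureTheory Set Filter Topology

noncomputable def ee (h s : ℝ) : ℝ := 1 - √s / √(s + h)

noncomputable def EE (q : ℝ) : ℝ := ∫ s in Ioi (0 : ℝ), ee 1 s * s ^ (q - 1)

lemma ee_nonneg {h s : ℝ} (hh : 0 ≤ h) : 0 ≤ ee h s := by
  rw [ee, sub_nonneg]
  exact div_le_one_of_le₀ (Real.sqrt_le_sqrt (by linarith)) (Real.sqrt_nonneg _)

lemma ee_le {h H s : ℝ} (hh : 0 ≤ h) (hH : h ≤ H) (hs : 0 < s) : ee h s ≤ ee H s := by
  unfold ee
  have := Real.sqrt_pos.2 (show 0 < s + h by linarith)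
  gcongr

lemma ee_le' {h s : ℝ} (hh : 0 ≤ h) (hs : 0 < s) : ee h s ≤ h / (s + h) := by
  have h1 : 0 < s + h := by linarith
  have h2 : s / (s + h) ≤ √s / √(s + h) := by
    rw [← Real.sqrt_div hs.le]
    refine Real.le_sqrt_of_sq_le ?_
    have : s / (s + h) ≤ 1 := div_le_one_of_le₀ (by linarith) h1.le
    have : 0 ≤ s / (s + h) := by positivity
    nlinarith
  have h3 : h / (s + h) = 1 - s / (s + h) := by field_simp; ring
  rw [ee, h3]; linarith

lemma meas_ee : Measurable fun p : ℝ × ℝ => ee p.1 p.2 := by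
  unfold ee; fun_prop

lemma int_ee {q h : ℝ} (hq : 0 < q) (hq1 : q < 1) (hh : 0 ≤ h) :
    IntegrableOn (fun s => ee h s * s ^ (q - 1)) (Ioi 0) := by
  have hm : Measurable fun s : ℝ => ee h s * s ^ (q - 1) := by unfold ee; fun_prop
  rw [← Ioc_union_Ioi_eq_Ioi (zero_le_one' ℝ)]
  refine IntegrableOn.union ?_ ?_
  · have := (intervalIntegral.intervalIntegrable_rpow' (a := 0) (b := 1)
      (show -1 < q - 1 by linarith)).1
    refine this.mono' hm.aestronglyMeasurable ?_
    filter_upwards [ae_restrict_mem measurableSet_Ioc] with s hs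
    have h0 := hs.1
    have h1 := ee_le' hh h0
    have h2 : h / (s + h) ≤ 1 := div_le_one_of_le₀ (by linarith) (by linarith)
    rw [Real.norm_of_nonneg (mul_nonneg (ee_nonneg hh) (by positivity))]
    exact mul_le_of_le_one_left (by positivity) (h1.trans h2)
  · have := (integrableOn_Ioi_rpow_of_lt (show q - 2 < -1 by linarith) zero_lt_one).const_mul h
    refine this.mono' hm.aestronglyMeasurable ?_
    filter_upwards [ae_restrict_mem measurableSet_Ioi] with s hs
    have h0 : 0 < s := zero_lt_one.trans hs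
    have h1 := ee_le' hh h0
    have h2 : h / (s + h) ≤ h / s := by gcongr; linarith
    rw [Real.norm_of_nonneg (mul_nonneg (ee_nonneg hh) (by positivity))]
    calc _ ≤ h / s * s ^ (q - 1) := by gcongr; exact h1.trans h2
      _ = _ := by
        rw [show q - 2 = q - 1 - 1 by ring, Real.rpow_sub_one h0.ne' (q - 1)]; ring

lemma integral_ee {q h : ℝ} (hq : 0 < q) (hh : 0 ≤ h) :
    ∫ s in Ioi (0 : ℝ), ee h s * s ^ (q - 1) = EE q * h ^ q := by
  rcases hh.eq_or_lt with rfl | hh
  · rw [Real.zero_rpow hq.ne', mul_zero]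
    refine (setIntegral_congr_fun measurableSet_Ioi fun s hs => ?_).trans (integral_zero _ _)
    have := Real.sqrt_pos.2 (show 0 < s from hs)
    simp [ee, this.ne']
  · have := integral_comp_mul_left_Ioi (fun s => ee h s * s ^ (q - 1)) 0 hh
    rw [mul_zero, smul_eq_mul] at this
    have e : ∫ x in Ioi (0 : ℝ), ee h (h * x) * (h * x) ^ (q - 1) = EE q * h ^ (q - 1) := by
      rw [EE, ← integral_mul_const]
      refine setIntegral_congr_fun measurableSet_Ioi fun s hs => ?_
      have hs' : 0 < s := hs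
      have : ee h (h * s) = ee 1 s := by
        rw [ee, ee, show h * s + h = h * (s + 1) by ring, Real.sqrt_mul hh.le, Real.sqrt_mul hh.le,
          mul_div_mul_left _ _ (Real.sqrt_pos.2 hh).ne']
      rw [this, Real.mul_rpow hh.le hs'.le]; ring
    rw [e, Real.rpow_sub_one hh.ne'] at this
    field_simp at this
    linarith

lemma EE_pos {q : ℝ} (hq : 0 < q) (hq1 : q < 1) : 0 < EE q := by
  rw [EE, setIntegral_pos_iff_support_of_nonneg_ae _ (int_ee hq hq1 zero_le_one)]
  · have : Ioi (0 : ℝ) ⊆ Function.support (fun s => ee 1 s * s ^ (q - 1)) := by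
      intro s hs
      have hs' : 0 < s := hs
      have : 0 < ee 1 s := by
        rw [ee, sub_pos, div_lt_one (Real.sqrt_pos.2 (by linarith))]
        exact Real.sqrt_lt_sqrt hs'.le (by linarith)
      exact (mul_pos this (by positivity)).ne'
    rw [inter_eq_right.2 this]; simp
  · filter_upwards [ae_restrict_mem measurableSet_Ioi] with s hs
    have hs' : 0 < s := hs
    exact mul_nonneg (ee_nonneg zero_le_one) (by positivity)

lemma fubini_ee {q c H : ℝ} (hq : 0 < q) (hq1 : q < 1) (hc : 0 ≤ c) {hh : ℝ → ℝ}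
    (hcont : Continuous hh) (hb : ∀ u ∈ Icc 0 c, 0 ≤ hh u ∧ hh u ≤ H) :
    IntegrableOn (fun s => (∫ u in (0 : ℝ)..c, ee (hh u) s) * s ^ (q - 1)) (Ioi 0) ∧
      ∫ s in Ioi (0 : ℝ), (∫ u in (0 : ℝ)..c, ee (hh u) s) * s ^ (q - 1) =
        EE q * ∫ u in (0 : ℝ)..c, hh u ^ q := by
  have hH : 0 ≤ H := (hb 0 ⟨le_rfl, hc⟩).1.trans (hb 0 ⟨le_rfl, hc⟩).2
  have hi : Integrable (Function.uncurry fun u s => ee (hh u) s * s ^ (q - 1))
      ((volume.restrict (Ioc 0 c)).prod (volume.restrict (Ioi 0))) := by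
    have hm : Measurable (Function.uncurry fun u s : ℝ => ee (hh u) s * s ^ (q - 1)) := by
      have := hcont.measurable
      unfold ee Function.uncurry; fun_prop
    refine ((int_ee hq hq1 hH).comp_snd _).mono' hm.aestronglyMeasurable ?_
    rw [Measure.prod_restrict]
    filter_upwards [ae_restrict_mem (measurableSet_Ioc.prod measurableSet_Ioi)] with p hp
    have h1 := hb p.1 (Ioc_subset_Icc_self hp.1)
    have h2 : 0 < p.2 := hp.2
    rw [Function.uncurry, Real.norm_of_nonneg (mul_nonneg (ee_nonneg h1.1) (by positivity))]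
    exact mul_le_mul_of_nonneg_right (ee_le h1.1 h1.2 h2) (by positivity)
  simp only [intervalIntegral.integral_of_le hc, ← integral_mul_const, ← integral_const_mul]
  refine ⟨hi.integral_prod_right, ?_⟩
  rw [← integral_integral_swap hi]
  refine setIntegral_congr_fun measurableSet_Ioc fun u hu => ?_
  exact integral_ee hq (hb u (Ioc_subset_Icc_self hu)).1

lemma sq_eq_int {ω s : ℝ} (hω : 0 ≤ ω) (hs : 0 < s) :
    ∫ u in (0 : ℝ)..ω, ee u s = (√(s + ω) - √s) ^ 2 := by
  have := intervalIntegral.integral_eq_sub_of_hasDerivAt (a := 0) (b := ω)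
    (f := fun u => u - 2 * √s * √(s + u)) (f' := fun u => ee u s) (fun u hu => by
      rw [uIcc_of_le hω] at hu
      have h1 : s + u ≠ 0 := by linarith [hu.1]
      have := (hasDerivAt_id' u).fun_sub
        ((((hasDerivAt_id' u).const_add s).sqrt h1).const_mul (2 * √s))
      convert this using 1
      simp only [ee]
      field_simp)
    (ContinuousOn.intervalIntegrable (by
      rw [uIcc_of_le hω]
      unfold ee
      refine continuousOn_const.sub (continuousOn_const.div (by fun_prop) fun u hu => ?_)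
      exact (Real.sqrt_pos.2 (by linarith [hu.1])).ne'))
  rw [this, add_zero]
  have h1 := Real.sq_sqrt hs.le
  have h2 := Real.sq_sqrt (show 0 ≤ s + ω by linarith)
  nlinarith

noncomputable def jj (κ s : ℝ) : ℝ := κ - √s * Real.arcsin (κ / √(κ ^ 2 + s))

lemma jj_eq_int {κ s : ℝ} (hκ : 0 ≤ κ) (hs : 0 < s) :
    ∫ u in (0 : ℝ)..κ, ee (κ ^ 2 - u ^ 2) s = jj κ s := by
  have hν : 0 < √(κ ^ 2 + s) := Real.sqrt_pos.2 (by positivity)
  have hν2 := Real.sq_sqrt (show 0 ≤ κ ^ 2 + s by positivity)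
  have := intervalIntegral.integral_eq_sub_of_hasDerivAt (a := 0) (b := κ)
    (f := fun u => u - √s * Real.arcsin (u / √(κ ^ 2 + s)))
    (f' := fun u => ee (κ ^ 2 - u ^ 2) s) (fun u hu => by
      rw [uIcc_of_le hκ] at hu
      have h0 : u ^ 2 ≤ κ ^ 2 := by have := hu.1; have := hu.2; gcongr
      have h1 : u / √(κ ^ 2 + s) < 1 := by
        rw [div_lt_one hν]; exact Real.lt_sqrt_of_sq_lt (by linarith)
      have h2 : -1 < u / √(κ ^ 2 + s) := by
        have : 0 ≤ u / √(κ ^ 2 + s) := div_nonneg hu.1 hν.le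
        linarith
      have := (hasDerivAt_id' u).fun_sub (((Real.hasDerivAt_arcsin h2.ne' h1.ne).comp u
        ((hasDerivAt_id' u).div_const (√(κ ^ 2 + s)))).const_mul √s)
      refine this.congr_deriv (Eq.symm ?_)
      have e : √(s + (κ ^ 2 - u ^ 2)) = √(1 - (u / √(κ ^ 2 + s)) ^ 2) * √(κ ^ 2 + s) := by
        rw [← Real.sqrt_mul' _ (by positivity), div_pow, hν2]
        congr 1; field_simp; ring
      rw [ee, e]; field_simp)
    (ContinuousOn.intervalIntegrable (by
      rw [uIcc_of_le hκ]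
      unfold ee
      refine continuousOn_const.sub (continuousOn_const.div (by fun_prop) fun u hu => ?_)
      have h0 : u ^ 2 ≤ κ ^ 2 := by have := hu.1; have := hu.2; gcongr
      exact (Real.sqrt_pos.2 (by linarith)).ne'))
  rw [this]; simp [jj]

noncomputable def B0 (q : ℝ) : ℝ := ∫ u in (0 : ℝ)..1, (1 - u ^ 2) ^ q

lemma int_sq_le {q ω ε L : ℝ} (hq : 0 < q) (hq1 : q < 1) (hω : 0 ≤ ω) (hε : 0 < ε) (hL : ε ≤ L) :
    ∫ s in ε..L, (√(s + ω) - √s) ^ 2 * s ^ (q - 1) ≤ EE q * (ω ^ (q + 1) / (q + 1)) := by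
  obtain ⟨h1, h2⟩ := fubini_ee hq hq1 hω (hh := fun u => u) (H := ω) continuous_id fun u hu => hu
  rw [integral_rpow (Or.inl (by linarith)), Real.zero_rpow (by linarith), sub_zero] at h2
  rw [← h2, intervalIntegral.integral_of_le hL]
  calc _ = ∫ s in Ioc ε L, (∫ u in (0 : ℝ)..ω, ee u s) * s ^ (q - 1) :=
        setIntegral_congr_fun measurableSet_Ioc fun s hs => by
          rw [sq_eq_int hω (hε.trans hs.1)]
    _ ≤ _ := by
      refine setIntegral_mono_set h1 ?_ (HasSubset.Subset.eventuallyLE fun s hs => hε.trans hs.1)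
      filter_upwards [ae_restrict_mem measurableSet_Ioi] with s hs
      have hs' : 0 < s := hs
      simp only [Pi.zero_apply]
      rw [sq_eq_int hω hs']; positivity

lemma tendsto_jj {q κ : ℝ} (hq : 0 < q) (hq1 : q < 1) (hκ : 0 ≤ κ) :
    Tendsto (fun k : ℕ => ∫ s in (1 / ((k : ℝ) + 1))..((k : ℝ) + 1), jj κ s * s ^ (q - 1)) atTop
      (𝓝 (EE q * (B0 q * κ ^ (2 * q + 1)))) := by
  obtain ⟨h1, h2⟩ := fubini_ee hq hq1 hκ (hh := fun u => κ ^ 2 - u ^ 2) (H := κ ^ 2) (by fun_prop)
    fun u hu => by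
      have h0 : u ^ 2 ≤ κ ^ 2 := by have := hu.1; have := hu.2; gcongr
      constructor <;> nlinarith [sq_nonneg u]
  have h3 : ∫ u in (0 : ℝ)..κ, (κ ^ 2 - u ^ 2) ^ q = B0 q * κ ^ (2 * q + 1) := by
    rcases hκ.eq_or_lt with rfl | hκ'
    · simp [Real.zero_rpow (show 2 * q + 1 ≠ 0 by linarith)]
    have := intervalIntegral.smul_integral_comp_mul_left (a := 0) (b := 1)
      (fun u : ℝ => (κ ^ 2 - u ^ 2) ^ q) κ
    rw [mul_zero, mul_one, smul_eq_mul] at this
    rw [← this, Real.rpow_add_one hκ'.ne', B0, ← mul_assoc, mul_comm, ←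
      intervalIntegral.integral_mul_const (κ ^ (2 * q))]
    refine congrArg (· * κ) (intervalIntegral.integral_congr fun u hu => ?_)
    rw [uIcc_of_le zero_le_one] at hu
    have : 0 ≤ 1 - u ^ 2 := by nlinarith [hu.1, hu.2]
    rw [show κ ^ 2 - (κ * u) ^ 2 = (1 - u ^ 2) * κ ^ 2 by ring, Real.mul_rpow this (by positivity),
      Real.rpow_mul hκ, Real.rpow_two]
  rw [h3] at h2
  have e : ∀ s ∈ Ioi (0 : ℝ), (∫ u in (0 : ℝ)..κ, ee (κ ^ 2 - u ^ 2) s) * s ^ (q - 1) =
      jj κ s * s ^ (q - 1) := fun s hs => by rw [jj_eq_int hκ hs]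
  rw [setIntegral_congr_fun measurableSet_Ioi e] at h2
  rw [integrableOn_congr_fun e measurableSet_Ioi] at h1
  have hU : ⋃ k : ℕ, Ioc (1 / ((k : ℝ) + 1)) ((k : ℝ) + 1) = Ioi 0 := by
    ext s
    simp only [mem_iUnion, mem_Ioc, mem_Ioi]
    constructor
    · rintro ⟨k, h, -⟩; exact lt_trans (by positivity) h
    · intro hs
      obtain ⟨k, hk⟩ := exists_nat_gt (max s (1 / s))
      refine ⟨k, ?_, by linarith [le_max_left s (1 / s)]⟩
      rw [one_div_lt (by positivity) hs]
      linarith [le_max_right s (1 / s)]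
  have := tendsto_setIntegral_of_monotone (μ := volume) (f := fun s => jj κ s * s ^ (q - 1))
    (s := fun k : ℕ => Ioc (1 / ((k : ℝ) + 1)) ((k : ℝ) + 1)) (fun _ => measurableSet_Ioc)
    (fun i j hij => Ioc_subset_Ioc (by gcongr) (by gcongr)) (by rwa [hU])
  rw [hU, h2] at this
  refine this.congr fun k => (intervalIntegral.integral_of_le ?_).symm
  have : (0 : ℝ) ≤ k := Nat.cast_nonneg _
  rw [div_le_iff₀ (by positivity)]; nlinarith

lemma B0_eq {q : ℝ} (hq : 0 < q) :
    B0 q = √Real.pi * Real.Gamma (q + 1) / (2 * Real.Gamma (q + 3 / 2)) := by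
  have h1 := ProbabilityTheory.beta_eq_betaIntegralReal (1 / 2) (q + 1) (by norm_num) (by linarith)
  have h2 : Complex.betaIntegral (1 / 2 : ℝ) (q + 1 : ℝ) =
      ((∫ t in (0 : ℝ)..1, t ^ (-(1 / 2) : ℝ) * (1 - t) ^ q : ℝ) : ℂ) := by
    rw [Complex.betaIntegral, ← intervalIntegral.integral_ofReal]
    refine intervalIntegral.integral_congr fun t ht => ?_
    rw [uIcc_of_le zero_le_one] at ht
    rw [Complex.ofReal_mul, Complex.ofReal_cpow ht.1, Complex.ofReal_cpow (by linarith [ht.2])]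
    push_cast
    congr 2 <;> ring
  rw [h2, Complex.ofReal_re, ProbabilityTheory.beta, Real.Gamma_one_half_eq] at h1
  have h3 := integral_comp_rpow_Ioi_of_pos
    (g := fun t : ℝ => (Ioc (0 : ℝ) 1).indicator (fun t => t ^ (-(1 / 2) : ℝ) * (1 - t) ^ q) t)
    (p := 2) two_pos
  rw [setIntegral_indicator measurableSet_Ioc, inter_eq_right.2 Ioc_subset_Ioi_self,
    ← intervalIntegral.integral_of_le zero_le_one, ← h1] at h3
  have h4 : ∫ x in Ioi (0 : ℝ), ((2 : ℝ) * x ^ ((2 : ℝ) - 1)) • (Ioc (0 : ℝ) 1).indicator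
      (fun t => t ^ (-(1 / 2) : ℝ) * (1 - t) ^ q) (x ^ (2 : ℝ)) = 2 * B0 q := by
    rw [B0, intervalIntegral.integral_of_le zero_le_one, ← integral_const_mul]
    conv_rhs => rw [← inter_eq_right.2 (show Ioc (0 : ℝ) 1 ⊆ Ioi 0 from Ioc_subset_Ioi_self),
      ← setIntegral_indicator measurableSet_Ioc]
    refine setIntegral_congr_fun measurableSet_Ioi fun x hx => ?_
    have hx' : 0 < x := hx
    simp only [Real.rpow_two]
    by_cases h : x ≤ 1
    · rw [indicator_of_mem (show x ^ 2 ∈ Ioc (0 : ℝ) 1 from ⟨by positivity, by nlinarith⟩),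
        indicator_of_mem (show x ∈ Ioc (0 : ℝ) 1 from ⟨hx', h⟩), ← Real.rpow_two x,
        ← Real.rpow_mul hx'.le]
      norm_num
      rw [Real.rpow_neg_one]; field_simp
    · rw [indicator_of_notMem (fun h' => h (by nlinarith [h'.2])),
        indicator_of_notMem (fun h' => h h'.2), smul_zero]
  rw [h4] at h3
  rw [show q + 3 / 2 = 1 / 2 + (q + 1) by ring]
  field_simp at h3 ⊢
  linarith

lemma B0_pos {q : ℝ} (hq : 0 < q) : 0 < B0 q := by
  rw [B0_eq hq]
  have := Real.Gamma_pos_of_pos (show 0 < q + 1 by linarith)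
  have := Real.Gamma_pos_of_pos (show 0 < q + 3 / 2 by linarith)
  have := Real.pi_pos
  positivity

/-- one-sided monotonicity lemma -/
lemma dini {R m : ℝ → ℝ} {a b r : ℝ} (ha : 0 < a) (hab : a ≤ b) (hR : ContinuousOn R (Icc a b))
    (hm : ContinuousOn m (Icc a b))
    (h : ∀ s ∈ Icc a b, ∀ t ∈ Icc a b, s ≤ t → R s ≤ R t - (t - s) / 2 * m t) :
    ∫ s in a..b, (s ^ r * m s + 2 * r * (s ^ (r - 1) * R s)) ≤ 2 * (b ^ r * R b - a ^ r * R a) := by
  have hp : ∀ x : ℝ, ContinuousOn (fun s : ℝ => s ^ x) (Icc a b) := fun x =>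
    continuousOn_id.rpow_const fun s hs => Or.inl (by have := hs.1; simp only [id]; linarith)
  set φ : ℝ → ℝ := fun s => s ^ r * m s + 2 * r * (s ^ (r - 1) * R s) with hφ
  have hφc : ContinuousOn φ (Icc a b) :=
    ((hp r).mul hm).add (continuousOn_const.mul ((hp _).mul hR))
  have key := image_le_of_liminf_slope_right_le_deriv_boundary (a := a) (b := b)
    (f := fun s => -2 * (s ^ r * R s)) (continuousOn_const.mul ((hp r).mul hR))
    (B := fun s => -2 * (a ^ r * R a) - ∫ t in a..s, φ t) (B' := fun s => - φ s) (by simp)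
    (continuousOn_const.sub (by
      have := intervalIntegral.continuousOn_primitive_interval (μ := volume) (f := φ) (a := a)
        (b := b) (by rw [uIcc_of_le hab]; exact hφc.integrableOn_Icc)
      rwa [uIcc_of_le hab] at this))
    (fun x hx => by
      have hx' : x ∈ Icc a b := Ico_subset_Icc_self hx
      have hmem : Icc a b ∈ 𝓝[>] x := mem_of_superset (Icc_mem_nhdsGT hx.2) (Icc_subset_Icc_left hx.1)
      refine HasDerivWithinAt.const_sub _ (intervalIntegral.integral_hasDerivWithinAt_right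
        (t := Ioi x) ((hφc.mono ?_).intervalIntegrable) ?_ ?_)
      · rw [uIcc_of_le hx.1]; exact Icc_subset_Icc_right hx.2.le
      · exact ⟨_, hmem, hφc.aestronglyMeasurable measurableSet_Icc⟩
      · exact (hφc x hx').mono_of_mem_nhdsWithin hmem)
    (fun x hx c hc => by
      have hx' : x ∈ Icc a b := Ico_subset_Icc_self hx
      have hx0 : 0 < x := ha.trans_le hx.1
      have hmem : Icc a b ∈ 𝓝[>] x := mem_of_superset (Icc_mem_nhdsGT hx.2) (Icc_subset_Icc_left hx.1)
      have t1 : Tendsto (slope (fun s : ℝ => s ^ r) x) (𝓝[>] x) (𝓝 (r * x ^ (r - 1))) :=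
        (hasDerivAt_iff_tendsto_slope_left_right.1 (Real.hasDerivAt_rpow_const (Or.inl hx0.ne'))).2
      have t2 : Tendsto R (𝓝[>] x) (𝓝 (R x)) := (hR x hx').mono_of_mem_nhdsWithin hmem
      have t3 : Tendsto m (𝓝[>] x) (𝓝 (m x)) := (hm x hx').mono_of_mem_nhdsWithin hmem
      have t4 := ((t1.mul t2).const_mul (-2)).sub (t3.const_mul (x ^ r))
      have t5 := t4.eventually (gt_mem_nhds (show -2 * (r * x ^ (r - 1) * R x) - x ^ r * m x < c by
        simp only [hφ] at hc; linarith))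
      refine Eventually.frequently ?_
      filter_upwards [t5, hmem, self_mem_nhdsWithin] with z hz hz1 hz2
      have hxz : 0 < z - x := sub_pos.2 hz2
      have := h x hx' z hz1 (le_of_lt hz2)
      refine lt_of_le_of_lt ?_ hz
      rw [slope_def_field, slope_def_field, div_le_iff₀ hxz]
      have e : (-2 * ((z ^ r - x ^ r) / (z - x) * R z) - x ^ r * m z) * (z - x) =
          -2 * ((z ^ r - x ^ r) * R z) - x ^ r * m z * (z - x) := by field_simp
      rw [e]
      have : 0 ≤ x ^ r := by positivity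
      nlinarith) (right_mem_Icc.2 hab)
  linarith

end Vale.Agent.P371
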