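import Vale.Agent.P371.Calib
import Vale.Agent.P371.Scal

namespace Vale.Agent.P371

open Matrix Finset MeasureTheory Filter Topology
open scoped ComplexOrder

variable {n : Type*} [Fintype n] [DecidableEq n]

lemma taylor_of_lip {f f' : ℝ → ℝ} {S : Set ℝ} (hS : Convex ℝ S) {C : ℝ} (hC : 0 ≤ C)
    (hf : ∀ x ∈ S, HasDerivAt f (f' x) x) (hl : ∀ x ∈ S, ∀ y ∈ S, |f' y - f' x| ≤ C * |y - x|) :
    ∀ x ∈ S, ∀ y ∈ S, |f y - f x - f' x * (y - x)| ≤ C * (y - x) ^ 2 := by
  intro x hx y hy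
  have hs : Set.uIcc x y ⊆ S := (hS.ordConnected).uIcc_subset hx hy
  have := (convex_uIcc x y).norm_image_sub_le_of_norm_hasDerivWithin_le
    (f := fun t => f t - f' x * t) (f' := fun t => f' t - f' x) (C := C * |y - x|)
    (fun t ht => by
      simpa using ((hf t (hs ht)).fun_sub ((hasDerivAt_id' t).const_mul (f' x))).hasDerivWithinAt)
    (fun t ht => (hl x hx t (hs ht)).trans
      (mul_le_mul_of_nonneg_left (Set.abs_sub_left_of_mem_uIcc ht) hC))
    Set.left_mem_uIcc Set.right_mem_uIcc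
  rw [Real.norm_eq_abs, Real.norm_eq_abs, mul_assoc, abs_mul_abs_self, ← sq] at this
  convert this using 2; ring

lemma arcsin_taylor {ρ : ℝ} (hρ : ρ < 1) : ∃ C : ℝ, ∀ x ∈ Set.Icc (-ρ) ρ, ∀ y ∈ Set.Icc (-ρ) ρ,
    |Real.arcsin y - Real.arcsin x - ci ρ x * (y - x)| ≤ C * (y - x) ^ 2 := by
  have h1 : ContDiffOn ℝ 1 (fun t : ℝ => (√(1 - t ^ 2))⁻¹) (Set.Icc (-ρ) ρ) := by
    intro t ht
    have := one_sub_sq_pos (abs_lt_of_mem hρ ht)
    refine ContDiffAt.contDiffWithinAt (ContDiffAt.inv ?_ (Real.sqrt_pos.2 this).ne')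
    exact ContDiffAt.sqrt (by fun_prop) this.ne'
  obtain ⟨C, hC⟩ := h1.exists_lipschitzOnWith one_ne_zero (convex_Icc _ _) isCompact_Icc
  refine ⟨C, taylor_of_lip (convex_Icc _ _) C.2 (fun x hx => ?_) fun x hx y hy => ?_⟩
  · have := abs_lt.1 (abs_lt_of_mem hρ hx)
    rw [ci_eq hx, ← one_div]
    exact Real.hasDerivAt_arcsin this.1.ne' this.2.ne
  · rw [ci_eq hx, ci_eq hy]
    exact hC.dist_le_mul y hy x hx

lemma continuous_cj (U : Matrix n n ℂ) : Continuous (cj U) := by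
  unfold cj
  refine (continuous_const.matrix_mul (Continuous.matrix_diagonal ?_)).matrix_mul continuous_const
  fun_prop

lemma continuous_ci {ρ : ℝ} (h0 : 0 ≤ ρ) (h1 : ρ < 1) : Continuous (ci ρ) := by
  unfold ci
  refine Continuous.inv₀ (by fun_prop) fun t => (Real.sqrt_pos.2 ?_).ne'
  exact lt_max_of_lt_right (by nlinarith)

lemma continuous_cs : Continuous cs := by unfold cs; fun_prop

section cont
variable {α : Type*} [TopologicalSpace α] {S : Set α} {s : α → ℝ} {Y : α → Matrix n n ℂ}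
  (U : Matrix n n ℂ) (κ : n → ℝ) (hs : ContinuousOn s S) (hs0 : ∀ a ∈ S, 0 < s a)
include hs

lemma cont_nu : ContinuousOn (fun a => cj U (nu κ (s a))) S := by
  refine (continuous_cj U).comp_continuousOn (continuousOn_pi.2 fun j => ?_)
  exact (continuousOn_const.add hs).sqrt

include hs0
lemma cont_Dh : ContinuousOn (fun a => Dh U κ (s a)) S := by
  refine (continuous_cj U).comp_continuousOn (continuousOn_pi.2 fun j => ?_)
  exact (continuousOn_const.add hs).sqrt.sqrt.inv₀ fun a ha =>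
    (Real.sqrt_pos.2 (nu_pos κ (hs0 a ha) j)).ne'

variable (hY : ContinuousOn Y S) (hh : ∀ a ∈ S, (Y a)ᴴ = Y a)
include hY hh

lemma cont_fc_bet {f : ℝ → ℝ} (hf : Continuous f) :
    ContinuousOn (fun a => fc f (bet U κ (s a) (Y a))) S := by
  refine continuousOn_fc hf (((cont_Dh U κ hs hs0).mul hY).mul (cont_Dh U κ hs hs0)) fun a ha => ?_
  simp only [bet, Dh, conjTranspose_mul, cj_herm, hh a ha, Matrix.mul_assoc]

lemma cont_Rf : ContinuousOn (fun a => Rf U κ (s a) (Y a)) S :=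
  continuous_rt.comp_continuousOn
    ((cont_nu U κ hs).mul (cont_fc_bet U κ hs hs0 hY hh continuous_cs))

lemma cont_Gi {ρ : ℝ} (h0 : 0 ≤ ρ) (h1 : ρ < 1) :
    ContinuousOn (fun a => Gi ρ U κ (s a) (Y a)) S :=
  ((cont_Dh U κ hs hs0).mul (cont_fc_bet U κ hs hs0 hY hh (continuous_ci h0 h1))).mul
    (cont_Dh U κ hs hs0)

end cont

noncomputable def ph (ρ : ℝ) (U : Matrix n n ℂ) (κ : n → ℝ) (s : ℝ) (Y W : Matrix n n ℂ) : ℝ :=
  rt (Gi ρ U κ s Y * W) + s * rt (Gi ρ U κ s Y) - Rf U κ s Y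

lemma perx {U Y W : Matrix n n ℂ} (hU : Un U) {κ : n → ℝ} (h : Adm U κ Y) {ρ : ℝ} (h0 : 0 ≤ ρ)
    (hρ1 : ρ < 1) {q ε L : ℝ} (hq : 0 < q) (hq1 : q < 1) (hε : 0 < ε) (hL : ε ≤ L)
    (hρ : ∀ s ∈ Set.Icc ε L, ∀ j, κ j ≤ ρ * nu κ s j) (hW : W.PosSemidef) :
    (rt W - rt (cj U κ * cj U κ - Y * Y)) * ((L ^ q - ε ^ q) / q) -
      ∫ s in ε..L, s ^ (q - 1 / 2) * ph ρ U κ s Y W ≤
      EE q * (q / (q + 1)) ^ q / (q + 1) * rt (fc (· ^ (q + 1)) W) +
        ε ^ q * (rt (cj U κ * cj U κ) + 2 * Fintype.card n * ε) / q := by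
  obtain ⟨V, w, hV, rfl⟩ := spec (X := W) hW.isHermitian
  have hw := (psd_cj_iff hV).1 hW
  have hs0 : ∀ s ∈ Set.Icc ε L, 0 < s := fun s hs => hε.trans_le hs.1
  have hp : ∀ x : ℝ, ContinuousOn (fun s : ℝ => s ^ x) (Set.Icc ε L) := fun x =>
    continuousOn_id.rpow_const fun s hs => Or.inl (hs0 s hs).ne'
  have cR := cont_Rf U κ continuousOn_id hs0 (continuousOn_const (c := Y)) fun _ _ => h.herm
  have cG := cont_Gi U κ continuousOn_id hs0 (continuousOn_const (c := Y)) (fun _ _ => h.herm) h0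
    hρ1
  simp only [id] at cR cG
  have cm := continuous_rt.comp_continuousOn cG
  have cW := continuous_rt.comp_continuousOn (cG.mul (continuousOn_const (c := cj V w)))
  have hd := dini (r := q + 1 / 2) hε hL cR cm fun s hs t ht hst =>
    step hU h hρ1 (hs0 s hs) hst (hρ s hs) (hρ t ht)
  set ω : n → ℝ := fun i => q / (q + 1) * w i with hω
  have hω0 : ∀ i, 0 ≤ ω i := fun i => by have := hw i; simp only [hω]; positivity
  have ii : ∀ {f : ℝ → ℝ}, ContinuousOn f (Set.Icc ε L) → IntervalIntegrable f volume ε L :=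
    fun hf => ContinuousOn.intervalIntegrable_of_Icc hL hf
  have c1 : ∀ i, ContinuousOn (fun s => (√(s + ω i) - √s) ^ 2 * s ^ (q - 1)) (Set.Icc ε L) :=
    fun i => ContinuousOn.mul (by fun_prop) (hp _)
  have c2 : ContinuousOn (fun s => s ^ (q - 1 / 2) * ph ρ U κ s Y (cj V w)) (Set.Icc ε L) :=
    (hp _).mul ((cW.add (continuousOn_id.mul cm)).sub cR)
  have c3 : ContinuousOn (fun s => s ^ (q + 1 / 2) * (rt ∘ fun a => Gi ρ U κ a Y) s +
      2 * (q + 1 / 2) * (s ^ (q + 1 / 2 - 1) * Rf U κ s Y)) (Set.Icc ε L) :=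
    ((hp _).mul cm).add (continuousOn_const.mul ((hp _).mul cR))
  have key := intervalIntegral.integral_mono_on (μ := volume) hL
    (f := fun s => rt (cj V w) * s ^ (q - 1) + 2 * Fintype.card n * ((q + 1) / q) * s ^ q -
      s ^ (q - 1 / 2) * ph ρ U κ s Y (cj V w))
    (g := fun s => (q + 1) / q * ∑ i, (√(s + ω i) - √s) ^ 2 * s ^ (q - 1) +
      1 / q * (s ^ (q + 1 / 2) * (rt ∘ fun a => Gi ρ U κ a Y) s +
      2 * (q + 1 / 2) * (s ^ (q + 1 / 2 - 1) * Rf U κ s Y)))
    (ii (((continuousOn_const.mul (hp _)).add (continuousOn_const.mul (hp _))).sub c2))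
    (ii ((continuousOn_const.mul (continuousOn_finsetSum _ fun i _ => c1 i)).add
      (continuousOn_const.mul c3)))
    (fun s hs => by
      have s0 := hs0 s hs
      have a1 := amgm' hU h hρ1 s0 (hρ s hs) (cj_herm V fun i => √(s + ω i))
      have e1 : (cj V fun i => √(s + ω i)) * (cj V fun i => √(s + ω i)) =
          s • (1 : Matrix n n ℂ) + (q / (q + 1)) • cj V w := by
        rw [cj_mul hV, ← cj_const hV, cj_smul, cj_add]
        exact cj_congr _ fun i => Real.mul_self_sqrt (by linarith [hω0 i])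
      rw [e1, Matrix.mul_add, Matrix.mul_smul, Matrix.mul_smul, Matrix.mul_one, rt_add, rt_smul,
        rt_smul, rt_cj hV] at a1
      have e2 : ∑ i, (√(s + ω i) - √s) ^ 2 * s ^ (q - 1) = (q / (q + 1) * rt (cj V w) +
          2 * Fintype.card n * s - 2 * √s * ∑ i, √(s + ω i)) * s ^ (q - 1) := by
        rw [← sum_mul, rt_cj hV, mul_sum, mul_sum]
        congr 1
        have : 2 * Fintype.card n * s = ∑ _i : n, 2 * s := by simp; ring
        rw [this, ← sum_add_distrib, ← sum_sub_distrib]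
        refine sum_congr rfl fun i _ => ?_
        have h1 := Real.sq_sqrt s0.le
        have h2 := Real.sq_sqrt (show 0 ≤ s + ω i by linarith [hω0 i])
        simp only [hω] at h2 ⊢
        nlinarith
      have r1 : s ^ q = s * s ^ (q - 1) := by
        rw [Real.rpow_sub_one s0.ne']; field_simp
      have r2 : s ^ (q - 1 / 2) = √s * s ^ (q - 1) := by
        rw [Real.sqrt_eq_rpow, ← Real.rpow_add s0]; congr 1; ring
      have r3 : s ^ (q + 1 / 2) = s * (√s * s ^ (q - 1)) := by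
        rw [← r2, mul_comm, ← Real.rpow_add_one s0.ne']; congr 1; ring
      have r4 : s ^ (q + 1 / 2 - 1) = √s * s ^ (q - 1) := by rw [← r2]; congr 1; ring
      simp only [Function.comp, e2, r1, r2, r3, r4, ph]
      have pos : 0 ≤ √s * s ^ (q - 1) * ((q + 1) / q) := by positivity
      have := mul_le_mul_of_nonneg_left a1 pos
      rw [← sub_nonneg] at this ⊢
      refine this.trans_eq ?_
      field_simp
      ring)
  rw [intervalIntegral.integral_sub (((ii (hp _)).const_mul _).add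
      ((ii (hp _)).const_mul _)) (ii c2),
    intervalIntegral.integral_add ((ii (hp _)).const_mul _) ((ii (hp _)).const_mul _),
    intervalIntegral.integral_add ((ii (continuousOn_finsetSum _ fun i _ => c1 i)).const_mul _)
      ((ii c3).const_mul _),
    intervalIntegral.integral_const_mul, intervalIntegral.integral_const_mul,
    intervalIntegral.integral_const_mul, intervalIntegral.integral_const_mul,
    intervalIntegral.integral_finsetSum fun i _ => ii (c1 i),
    integral_rpow (Or.inl (by linarith)), integral_rpow (Or.inl (by linarith)), sub_add_cancel]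
    at key
  have k2 : ∑ i, ∫ s in ε..L, (√(s + ω i) - √s) ^ 2 * s ^ (q - 1) ≤
      ∑ i, EE q * (ω i ^ (q + 1) / (q + 1)) :=
    sum_le_sum fun i _ => int_sq_le hq hq1 (hω0 i) hε hL
  have k3 : (q + 1) / q * ∑ i, EE q * (ω i ^ (q + 1) / (q + 1)) =
      EE q * (q / (q + 1)) ^ q / (q + 1) * rt (fc (· ^ (q + 1)) (cj V w)) := by
    rw [fc_cj hV, rt_cj hV, mul_sum, mul_sum]
    refine sum_congr rfl fun i _ => ?_
    simp only [hω]
    rw [Real.mul_rpow (by positivity) (hw i), Real.rpow_add_one (by positivity) q]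
    field_simp
  have L0 : 0 < L := hε.trans_le hL
  have k4 := Rf_le hU h hρ1 L0 (hρ L ⟨hL, le_rfl⟩)
  have k5 := Rf_nonneg hU h hε (hρ ε ⟨le_rfl, hL⟩)
  have k6 : 0 ≤ rt (Y * Y) := by have := rt_ctm_nonneg Y; rwa [h.herm] at this
  have r1 : L ^ (q + 1 / 2) = √L * L ^ q := by
    rw [Real.sqrt_eq_rpow, ← Real.rpow_add L0]; congr 1; ring
  rw [r1] at hd
  rw [Real.rpow_add_one L0.ne', Real.rpow_add_one hε.ne'] at key
  rw [← k3]
  rw [rt_sub] at k4 ⊢
  have k7 := mul_le_mul_of_nonneg_left k2 (show 0 ≤ (q + 1) / q by positivity)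
  have k8 := mul_le_mul_of_nonneg_left hd (show 0 ≤ 1 / q by positivity)
  have k9 := mul_le_mul_of_nonneg_left k4 (show 0 ≤ L ^ q / q by positivity)
  have k10 : 0 ≤ ε ^ (q + 1 / 2) * Rf U κ ε Y / q := by positivity
  have k11 : 0 ≤ ε ^ q * rt (Y * Y) / q := by positivity
  have e : 2 * Fintype.card n * ((q + 1) / q) * ((L ^ q * L - ε ^ q * ε) / (q + 1)) =
      2 * Fintype.card n * ((L ^ q * L - ε ^ q * ε) / q) := by field_simp
  rw [e] at key
  simp only [div_eq_mul_inv] at *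
  nlinarith

open scoped Matrix.Norms.Frobenius

/-- an admissible solution of the matrix Riccati boundary value problem -/
structure Path (U : Matrix n n ℂ) (κ : n → ℝ) (a b : ℝ) (Y W : ℝ → Matrix n n ℂ) : Prop where
  cW : ContinuousOn W (Set.Icc a b)
  pW : ∀ x ∈ Set.Icc a b, (W x).PosSemidef
  adm : ∀ x ∈ Set.Icc a b, Adm U κ (Y x)
  der : ∀ x ∈ Set.Icc a b,
    HasDerivWithinAt Y (W x - (cj U κ * cj U κ - Y x * Y x)) (Set.Icc a b) x
  ya : Y a = - cj U κ
  yb : Y b = cj U κ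

lemma ftc {f f' : ℝ → ℝ} {a b : ℝ} (hab : a ≤ b)
    (h : ∀ x ∈ Set.Icc a b, HasDerivWithinAt f (f' x) (Set.Icc a b) x)
    (hc : ContinuousOn f' (Set.Icc a b)) : ∫ x in a..b, f' x = f b - f a :=
  intervalIntegral.integral_eq_sub_of_hasDerivAt_of_le hab (fun x hx => (h x hx).continuousWithinAt)
    (fun x hx => (h x (Set.Ioo_subset_Icc_self hx)).hasDerivAt (Icc_mem_nhds hx.1 hx.2))
    (hc.intervalIntegrable_of_Icc hab)

section
variable {U : Matrix n n ℂ} (hU : Un U) {κ : n → ℝ} {a b : ℝ} (hab : a ≤ b)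
  {Y W : ℝ → Matrix n n ℂ} (hP : Path U κ a b Y W)
include hP

lemma Path.cY : ContinuousOn Y (Set.Icc a b) := fun x hx => (hP.der x hx).continuousWithinAt

lemma cont_ph {ρ : ℝ} (h0 : 0 ≤ ρ) (h1 : ρ < 1) {ε L : ℝ} (hε : 0 < ε) :
    ContinuousOn (fun p : ℝ × ℝ => ph ρ U κ p.2 (Y p.1) (W p.1)) (Set.Icc a b ×ˢ Set.Icc ε L) := by
  have hs0 : ∀ p ∈ Set.Icc a b ×ˢ Set.Icc ε L, 0 < p.2 := fun p hp => hε.trans_le hp.2.1
  have cY : ContinuousOn (fun p : ℝ × ℝ => Y p.1) (Set.Icc a b ×ˢ Set.Icc ε L) :=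
    hP.cY.comp continuousOn_fst fun p hp => hp.1
  have cW : ContinuousOn (fun p : ℝ × ℝ => W p.1) (Set.Icc a b ×ˢ Set.Icc ε L) :=
    hP.cW.comp continuousOn_fst fun p hp => hp.1
  have hh : ∀ p ∈ Set.Icc a b ×ˢ Set.Icc ε L, (Y p.1)ᴴ = Y p.1 := fun p hp => (hP.adm _ hp.1).herm
  have cG := cont_Gi U κ continuousOn_snd hs0 cY hh h0 h1
  exact ((continuous_rt.comp_continuousOn (cG.mul cW)).add (continuousOn_snd.mul
    (continuous_rt.comp_continuousOn cG))).sub (cont_Rf U κ continuousOn_snd hs0 cY hh)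

include hU hab

lemma pers {ρ : ℝ} (h0 : 0 ≤ ρ) (h1 : ρ < 1) {s : ℝ} (hs : 0 < s)
    (hρ : ∀ j, κ j ≤ ρ * nu κ s j) :
    ∫ x in a..b, ph ρ U κ s (Y x) (W x) = 2 * ∑ j, Real.arcsin (κ j / nu κ s j) := by
  obtain ⟨C, hC⟩ := arcsin_taylor h1
  have hc : ContinuousOn (fun x => ph ρ U κ s (Y x) (W x)) (Set.Icc a b) :=
    (cont_ph hP h0 h1 (L := s) hs).comp (f := fun x => (x, s)) (by fun_prop)
      fun x hx => ⟨hx, le_rfl, le_rfl⟩
  rw [ftc hab (f := fun x => rt (fc Real.arcsin (bet U κ s (Y x)))) (fun x hx => ?_) hc]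
  · have e : bet U κ s (cj U κ) = cj U fun j => κ j / nu κ s j := by
      rw [bet, Dh, cj_mul hU, cj_mul hU]
      refine cj_congr _ fun j => ?_
      have h1 := nu_pos κ hs j
      have h2 := Real.sqrt_pos.2 h1
      have h3 := Real.sq_sqrt h1.le
      field_simp
      rw [h3, mul_comm]
    have e' : bet U κ s (-cj U κ) = cj U fun j => -(κ j / nu κ s j) := by
      rw [← cj_neg, ← e, bet, bet, Matrix.mul_neg, Matrix.neg_mul]
    rw [hP.ya, hP.yb, e, e', fc_cj hU, fc_cj hU, rt_cj hU, rt_cj hU]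
    simp only [Real.arcsin_neg, sum_neg_distrib]; ring
  · have := hasDeriv_rt_fc hC hx (X := fun x => bet U κ s (Y x))
      (fun u hu => bet_spec hU κ hs (hP.adm u hu) hρ)
      (((hP.der x hx).const_mul (Dh U κ s)).mul_const (Dh U κ s))
    refine this.congr_deriv ?_
    have e : ∀ Z, rt (fc (ci ρ) (bet U κ s (Y x)) * (Dh U κ s * Z * Dh U κ s)) =
        rt (Gi ρ U κ s (Y x) * Z) := fun Z => by
      rw [Gi, Matrix.mul_assoc (Dh U κ s * _), rt_comm (Dh U κ s * _), ← Matrix.mul_assoc _ (Dh U κ s),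
        rt_comm _ (fc _ _)]
    rw [e, Matrix.mul_sub, rt_sub, flow_id hU (hP.adm x hx) h1 hs hρ, ph]; ring

lemma trunc (hκ : ∀ j, 0 ≤ κ j) {q ε L : ℝ} (hq : 0 < q) (hq1 : q < 1) (hε : 0 < ε) (hL : ε ≤ L) :
    2 * ∑ j, ∫ s in ε..L, jj (κ j) s * s ^ (q - 1) ≤
      EE q * (q / (q + 1)) ^ q / (q + 1) * (∫ x in a..b, rt (fc (· ^ (q + 1)) (W x))) +
        (b - a) * (ε ^ q * (rt (cj U κ * cj U κ) + 2 * Fintype.card n * ε) / q) := by
  obtain ⟨ρ, hρ, h0, h1⟩ : ∃ ρ : ℝ, (∀ j, κ j / nu κ ε j < ρ) ∧ 0 < ρ ∧ ρ < 1 := by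
    have e1 : ∀ᶠ ρ in 𝓝[<] (1 : ℝ), ∀ j, κ j / nu κ ε j < ρ := by
      refine eventually_all.2 fun j => nhdsWithin_le_nhds (lt_mem_nhds ?_)
      rw [div_lt_one (nu_pos κ hε j)]
      exact Real.lt_sqrt_of_sq_lt (by linarith)
    have e2 : ∀ᶠ ρ in 𝓝[<] (1 : ℝ), 0 < ρ := nhdsWithin_le_nhds (lt_mem_nhds one_pos)
    exact (e1.and (e2.and self_mem_nhdsWithin)).exists
  have hρ' : ∀ s ∈ Set.Icc ε L, ∀ j, κ j ≤ ρ * nu κ s j := fun s hs j => by
    have := (div_lt_iff₀ (nu_pos κ hε j)).1 (hρ j)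
    have h2 : nu κ ε j ≤ nu κ s j := Real.sqrt_le_sqrt (by linarith [hs.1])
    nlinarith
  have hs0 : ∀ s ∈ Set.Icc ε L, 0 < s := fun s hs => hε.trans_le hs.1
  have hp : ∀ x : ℝ, ContinuousOn (fun s : ℝ => s ^ x) (Set.Icc ε L) := fun x =>
    continuousOn_id.rpow_const fun s hs => Or.inl (hs0 s hs).ne'
  have c1 : ContinuousOn (Function.uncurry fun x s => s ^ (q - 1 / 2) * ph ρ U κ s (Y x) (W x))
      (Set.Icc a b ×ˢ Set.Icc ε L) :=
    ((hp _).comp continuousOn_snd fun p hp => hp.2).mul (cont_ph hP h0.le h1 hε)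
  have i1 : IntegrableOn (Function.uncurry fun x s => s ^ (q - 1 / 2) * ph ρ U κ s (Y x) (W x))
      (Set.uIoc a b ×ˢ Set.uIoc ε L) := by
    refine (c1.integrableOn_compact (isCompact_Icc.prod isCompact_Icc)).mono_set ?_
    rw [Set.uIoc_of_le hab, Set.uIoc_of_le hL]
    exact Set.prod_mono Set.Ioc_subset_Icc_self Set.Ioc_subset_Icc_self
  have sw := intervalIntegral_intervalIntegral_swap i1
  have i2 : IntervalIntegrable (fun x => ∫ s in ε..L, s ^ (q - 1 / 2) * ph ρ U κ s (Y x) (W x))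
      volume a b := by
    rw [IntegrableOn, Measure.volume_eq_prod, ← Measure.prod_restrict, Set.uIoc_of_le hL] at i1
    rw [intervalIntegrable_iff]
    simp only [intervalIntegral.integral_of_le hL]
    exact i1.integral_prod_left
  have ii : ∀ {f : ℝ → ℝ}, ContinuousOn f (Set.Icc a b) → IntervalIntegrable f volume a b :=
    fun hf => ContinuousOn.intervalIntegrable_of_Icc hab hf
  have ii' : ∀ {f : ℝ → ℝ}, ContinuousOn f (Set.Icc ε L) → IntervalIntegrable f volume ε L :=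
    fun hf => ContinuousOn.intervalIntegrable_of_Icc hL hf
  have c2 : ContinuousOn (fun x => rt (W x) - rt (cj U κ * cj U κ - Y x * Y x)) (Set.Icc a b) :=
    (continuous_rt.comp_continuousOn hP.cW).sub (continuous_rt.comp_continuousOn
      (continuousOn_const.sub (hP.cY.mul hP.cY)))
  have c3 : ContinuousOn (fun x => rt (fc (· ^ (q + 1)) (W x))) (Set.Icc a b) :=
    continuous_rt.comp_continuousOn (continuousOn_fc
      (Real.continuous_rpow_const (by linarith)) hP.cW fun x hx => (hP.pW x hx).isHermitian)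
  have key := intervalIntegral.integral_mono_on (μ := volume) hab
    (((ii c2).mul_const _).sub i2) (((ii c3).const_mul _).add intervalIntegrable_const)
    fun x hx => perx hU (hP.adm x hx) h0.le h1 hq hq1 hε hL hρ' (hP.pW x hx)
  rw [intervalIntegral.integral_sub ((ii c2).mul_const _) i2,
    intervalIntegral.integral_add ((ii c3).const_mul _) intervalIntegrable_const,
    intervalIntegral.integral_const_mul, intervalIntegral.integral_mul_const,
    intervalIntegral.integral_const, smul_eq_mul, sw,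
    ftc hab (f := fun x => rt (Y x)) (fun x hx => by
      rw [← rt_sub]; exact rtL.hasFDerivAt.comp_hasDerivWithinAt x (hP.der x hx)) c2,
    hP.ya, hP.yb, rt_neg, rt_cj hU] at key
  refine le_trans (le_of_eq ?_) key
  have c4 : ∀ j, ContinuousOn (fun s => jj (κ j) s * s ^ (q - 1)) (Set.Icc ε L) := fun j => by
    refine ContinuousOn.mul ?_ (hp _)
    unfold jj
    refine continuousOn_const.sub (ContinuousOn.mul (by fun_prop)
      (Real.continuous_arcsin.comp_continuousOn (continuousOn_const.div (by fun_prop) ?_)))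
    exact fun s hs => (nu_pos κ (hs0 s hs) j).ne'
  have e1 : (L ^ q - ε ^ q) / q = ∫ s in ε..L, s ^ (q - 1) := by
    rw [integral_rpow (Or.inl (by linarith)), sub_add_cancel]
  have e2 : ∫ s in ε..L, ∫ x in a..b, s ^ (q - 1 / 2) * ph ρ U κ s (Y x) (W x) =
      ∫ s in ε..L, ((∑ j, κ j - -∑ j, κ j) * s ^ (q - 1) - 2 * ∑ j, jj (κ j) s * s ^ (q - 1)) := by
    refine intervalIntegral.integral_congr fun s hs => ?_
    rw [Set.uIcc_of_le hL] at hs
    have r2 : s ^ (q - 1 / 2) = √s * s ^ (q - 1) := by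
      rw [Real.sqrt_eq_rpow, ← Real.rpow_add (hs0 s hs)]; congr 1; ring
    rw [intervalIntegral.integral_const_mul, pers hU hab hP h0.le h1 (hs0 s hs) (hρ' s hs), r2,
      ← sum_mul]
    simp only [jj, nu, sum_sub_distrib, ← mul_sum]; ring
  rw [e1, e2, intervalIntegral.integral_sub ((ii' (hp _)).const_mul _)
    ((ii' (continuousOn_finsetSum _ fun j _ => c4 j)).const_mul _),
    intervalIntegral.integral_const_mul, intervalIntegral.integral_const_mul,
    intervalIntegral.integral_finsetSum fun j _ => ii' (c4 j)]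
  ring

/-- the sharp constant -/
noncomputable def LL (q : ℝ) : ℝ := (q / (q + 1)) ^ q / ((q + 1) * (2 * B0 q))

theorem HJ (hκ : ∀ j, 0 ≤ κ j) {q : ℝ} (hq : 0 < q) (hq1 : q < 1) :
    ∑ j, κ j ^ (2 * q + 1) ≤ LL q * ∫ x in a..b, rt (fc (· ^ (q + 1)) (W x)) := by
  have t1 := (tendsto_finsetSum univ fun j _ => tendsto_jj hq hq1 (hκ j)).const_mul 2
  have t0 : Tendsto (fun k : ℕ => 1 / ((k : ℝ) + 1)) atTop (𝓝 0) :=
    tendsto_one_div_add_atTop_nhds_zero_nat
  have t2 := ((((t0.rpow_const (Or.inr hq.le)).mul ((t0.const_mul (2 * (Fintype.card n : ℝ))).const_add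
    (rt (cj U κ * cj U κ)))).div_const q).const_mul (b - a)).const_add
    (EE q * (q / (q + 1)) ^ q / (q + 1) * (∫ x in a..b, rt (fc (· ^ (q + 1)) (W x))))
  have := le_of_tendsto_of_tendsto' t1 t2 fun k => trunc hU hab hP hκ hq hq1 (by positivity) (by
    have : (0 : ℝ) ≤ k := Nat.cast_nonneg _
    rw [div_le_iff₀ (by positivity)]; nlinarith)
  rw [Real.zero_rpow hq.ne', zero_mul, zero_div, mul_zero, add_zero, ← mul_sum, ← mul_sum] at this
  have hE := EE_pos hq hq1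
  have hB := B0_pos hq
  rw [LL, div_mul_eq_mul_div, le_div_iff₀ (by positivity)]
  rw [div_mul_eq_mul_div, le_div_iff₀ (by positivity)] at this
  refine le_of_mul_le_mul_left ?_ hE
  linarith

end

end Vale.Agent.P371
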