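import Mathlib

namespace Vale.Agent.P371

open Matrix Finset
open scoped ComplexOrder

variable {n m : Type*} [Fintype n] [DecidableEq n] [Fintype m] [DecidableEq m]

/-- functional calculus -/
noncomputable def fc (f : ℝ → ℝ) (X : Matrix n n ℂ) : Matrix n n ℂ := cfc f X

/-- real part of the trace -/
def rt (X : Matrix n n ℂ) : ℝ := (trace X).re

def cj (U : Matrix n n ℂ) (d : n → ℝ) : Matrix n n ℂ := U * diagonal (fun i => (d i : ℂ)) * Uᴴ

def Un (U : Matrix n n ℂ) : Prop := U * Uᴴ = 1 ∧ Uᴴ * U = 1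

lemma spec0 {X : Matrix n n ℂ} (hX : X.IsHermitian) : ∃ (U : Matrix n n ℂ) (d : n → ℝ),
    Un U ∧ X = cj U d ∧ ∀ f, fc f X = cj U fun i => f (d i) := by
  refine ⟨hX.eigenvectorUnitary, hX.eigenvalues, ⟨?_, ?_⟩, ?_, fun f => ?_⟩
  · simpa [star_eq_conjTranspose] using (Unitary.coe_mul_star_self hX.eigenvectorUnitary)
  · simpa [star_eq_conjTranspose] using (Unitary.coe_star_mul_self hX.eigenvectorUnitary)
  · have := hX.spectral_theorem
    simpa [cj, Unitary.conjStarAlgAut_apply, star_eq_conjTranspose, Function.comp_def] using this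
  · rw [fc, hX.cfc_eq]
    simp [cj, IsHermitian.cfc, Unitary.conjStarAlgAut_apply, star_eq_conjTranspose,
      Function.comp_def]

omit [DecidableEq n] in
lemma rt_add (X Y : Matrix n n ℂ) : rt (X + Y) = rt X + rt Y := by simp [rt]
omit [DecidableEq n] in
lemma rt_sub (X Y : Matrix n n ℂ) : rt (X - Y) = rt X - rt Y := by simp [rt]
omit [DecidableEq n] in
lemma rt_neg (X : Matrix n n ℂ) : rt (-X) = - rt X := by simp [rt]
omit [DecidableEq n] in
lemma rt_zero : rt (0 : Matrix n n ℂ) = 0 := by simp [rt]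
omit [DecidableEq n] in
lemma rt_smul (c : ℝ) (X : Matrix n n ℂ) : rt (c • X) = c * rt X := by
  simp [rt]
omit [DecidableEq n] in
lemma rt_sum {ι : Type*} (s : Finset ι) (X : ι → Matrix n n ℂ) :
    rt (∑ i ∈ s, X i) = ∑ i ∈ s, rt (X i) := by simp [rt, trace_sum]
omit [DecidableEq n] [DecidableEq m] in
lemma rt_comm (X : Matrix n m ℂ) (Y : Matrix m n ℂ) : rt (X * Y) = rt (Y * X) := by
  rw [rt, rt, trace_mul_comm]
omit [DecidableEq n] in
lemma rt_ct (X : Matrix n n ℂ) : rt Xᴴ = rt X := by simp [rt, trace_conjTranspose]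
lemma rt_one : rt (1 : Matrix n n ℂ) = Fintype.card n := by simp [rt]

lemma cj_mul {U : Matrix n n ℂ} (hU : Un U) (d e : n → ℝ) :
    cj U d * cj U e = cj U fun i => d i * e i := by
  unfold cj
  calc _ = U * (diagonal (fun i => (d i : ℂ)) * (Uᴴ * U) * diagonal fun i => (e i : ℂ)) * Uᴴ := by
        simp only [Matrix.mul_assoc]
    _ = _ := by rw [hU.2, Matrix.mul_one, diagonal_mul_diagonal]; simp

lemma cj_add (U : Matrix n n ℂ) (d e : n → ℝ) : cj U d + cj U e = cj U fun i => d i + e i := by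
  unfold cj
  rw [← Matrix.add_mul, ← Matrix.mul_add, diagonal_add]; simp

lemma cj_sub (U : Matrix n n ℂ) (d e : n → ℝ) : cj U d - cj U e = cj U fun i => d i - e i := by
  unfold cj
  rw [← Matrix.sub_mul, ← Matrix.mul_sub, diagonal_sub]; simp

lemma cj_smul (U : Matrix n n ℂ) (c : ℝ) (d : n → ℝ) : c • cj U d = cj U fun i => c * d i := by
  unfold cj
  rw [← Matrix.smul_mul, ← Matrix.mul_smul, ← diagonal_smul]
  congr 3; funext i; simp

lemma cj_neg (U : Matrix n n ℂ) (d : n → ℝ) : - cj U d = cj U fun i => - d i := by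
  have := cj_smul U (-1) d
  simpa using this

lemma cj_const {U : Matrix n n ℂ} (hU : Un U) (c : ℝ) :
    cj U (fun _ => c) = c • (1 : Matrix n n ℂ) := by
  have : cj U (fun _ => 1) = 1 := by simp [cj, hU.1]
  rw [← this, cj_smul]; simp

lemma cj_one {U : Matrix n n ℂ} (hU : Un U) : cj U (fun _ => 1) = 1 := by simp [cj, hU.1]

lemma cj_herm (U : Matrix n n ℂ) (d : n → ℝ) : (cj U d)ᴴ = cj U d := by
  simp [cj, conjTranspose_mul, Matrix.mul_assoc, diagonal_conjTranspose, Pi.star_def]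

lemma cj_congr (U : Matrix n n ℂ) {d e : n → ℝ} (h : ∀ i, d i = e i) : cj U d = cj U e := by
  rw [funext h]

lemma rt_cj {U : Matrix n n ℂ} (hU : Un U) (d : n → ℝ) : rt (cj U d) = ∑ i, d i := by
  rw [cj, rt_comm, ← Matrix.mul_assoc, hU.2, Matrix.one_mul]
  simp [rt]

lemma psd_cj (U : Matrix n n ℂ) {d : n → ℝ} (hd : ∀ i, 0 ≤ d i) : (cj U d).PosSemidef :=
  (posSemidef_diagonal_iff.2 fun i => by exact_mod_cast hd i).mul_mul_conjTranspose_same U

lemma psd_cj_iff {U : Matrix n n ℂ} (hU : Un U) {d : n → ℝ} :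
    (cj U d).PosSemidef ↔ ∀ i, 0 ≤ d i := by
  refine ⟨fun h => ?_, psd_cj U⟩
  have h4 := h.conjTranspose_mul_mul_same U
  have h5 : Uᴴ * cj U d * U = diagonal fun i => (d i : ℂ) := by
    unfold cj
    calc _ = (Uᴴ * U) * diagonal (fun i => (d i : ℂ)) * (Uᴴ * U) := by simp only [Matrix.mul_assoc]
      _ = _ := by rw [hU.2]; simp
  rw [h5] at h4
  intro i
  exact_mod_cast posSemidef_diagonal_iff.1 h4 i

omit [DecidableEq n] [DecidableEq m] in
lemma rt_ctm (F : Matrix m n ℂ) : rt (Fᴴ * F) = ∑ k, ∑ i, ‖F k i‖ ^ 2 := by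
  rw [sum_comm]
  simp [rt, trace, mul_apply, Complex.sq_norm, Complex.normSq_apply]

lemma rt_rect (U : Matrix m m ℂ) (V : Matrix n n ℂ) (F : Matrix m n ℂ) (a : m → ℝ) (b : n → ℝ) :
    rt (Fᴴ * cj U a * F * cj V b) = ∑ k, ∑ i, a k * b i * ‖(Uᴴ * F * V) k i‖ ^ 2 := by
  have : rt (Fᴴ * cj U a * F * cj V b) = rt ((Uᴴ * F * V)ᴴ * diagonal (fun i => (a i : ℂ)) *
      (Uᴴ * F * V) * diagonal fun i => (b i : ℂ)) := by
    unfold cj
    rw [← Matrix.mul_assoc _ _ Vᴴ, rt_comm]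
    simp only [conjTranspose_mul, conjTranspose_conjTranspose, Matrix.mul_assoc]
  rw [this, sum_comm]
  generalize Uᴴ * F * V = O
  simp only [rt, trace, diag_apply, mul_diagonal, Complex.re_sum]
  refine sum_congr rfl fun i _ => ?_
  rw [Matrix.mul_apply]
  simp only [mul_diagonal, conjTranspose_apply, sum_mul, Complex.re_sum]
  refine sum_congr rfl fun k _ => ?_
  simp [Complex.sq_norm, Complex.normSq_apply]; ring

lemma rt_cj_cj (U V : Matrix n n ℂ) (a b : n → ℝ) :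
    rt (cj U a * cj V b) = ∑ k, ∑ i, a k * b i * ‖(Uᴴ * V) k i‖ ^ 2 := by
  simpa using rt_rect U V 1 a b

lemma w_row {U V : Matrix n n ℂ} (hU : Un U) (hV : Un V) (k : n) :
    ∑ i, ‖(Uᴴ * V) k i‖ ^ 2 = 1 := by
  have := rt_cj_cj U V (Pi.single k 1) fun _ => 1
  rw [cj_one hV, Matrix.mul_one, rt_cj hU] at this
  simpa [Pi.single_apply, ite_mul] using this.symm

lemma w_col {U V : Matrix n n ℂ} (hU : Un U) (hV : Un V) (i : n) :
    ∑ k, ‖(Uᴴ * V) k i‖ ^ 2 = 1 := by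
  have := rt_cj_cj U V (fun _ => 1) (Pi.single i 1)
  rw [cj_one hU, Matrix.one_mul, rt_cj hV] at this
  simpa [Pi.single_apply, ite_mul] using this.symm

/-- Klein's lemma -/
lemma klein {U V : Matrix n n ℂ} (hU : Un U) (hV : Un V) (a b c e : n → ℝ)
    (h : ∀ k i, c k * e i ≤ a k + b i) : rt (cj U c * cj V e) ≤ ∑ k, a k + ∑ i, b i := by
  rw [rt_cj_cj]
  have h1 : ∑ k, a k = ∑ k, ∑ i, a k * ‖(Uᴴ * V) k i‖ ^ 2 :=
    sum_congr rfl fun k _ => by rw [← mul_sum, w_row hU hV, mul_one]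
  have h2 : ∑ i, b i = ∑ k, ∑ i, b i * ‖(Uᴴ * V) k i‖ ^ 2 := by
    rw [sum_comm]
    exact sum_congr rfl fun k _ => by rw [← mul_sum, w_col hU hV, mul_one]
  rw [h1, h2, ← sum_add_distrib]
  refine sum_le_sum fun k _ => ?_
  rw [← sum_add_distrib]
  refine sum_le_sum fun i _ => ?_
  rw [← add_mul]
  exact mul_le_mul_of_nonneg_right (h k i) (sq_nonneg _)

lemma rt_mul_nonneg {M T : Matrix n n ℂ} (hM : M.PosSemidef) (hT : T.PosSemidef) :
    0 ≤ rt (M * T) := by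
  obtain ⟨U, d, hU, rfl, -⟩ := spec0 hM.isHermitian
  obtain ⟨V, e, hV, rfl, -⟩ := spec0 hT.isHermitian
  rw [rt_cj_cj]
  have h1 := (psd_cj_iff hU).1 hM
  have h2 := (psd_cj_iff hV).1 hT
  exact sum_nonneg fun k _ => sum_nonneg fun i _ => by have := h1 k; have := h2 i; positivity

lemma rt_nonneg {M : Matrix n n ℂ} (hM : M.PosSemidef) : 0 ≤ rt M := by
  simpa using rt_mul_nonneg hM PosSemidef.one

section norms
open scoped Matrix.Norms.Frobenius

omit [DecidableEq n] [DecidableEq m] in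
lemma norm_sq_eq (F : Matrix m n ℂ) : ‖F‖ ^ 2 = rt (Fᴴ * F) := by
  rw [rt_ctm, frobenius_norm_def, ← Real.sqrt_eq_rpow, Real.sq_sqrt (by positivity)]
  simp

lemma norm_cj_sub {U V : Matrix n n ℂ} (hU : Un U) (hV : Un V) (a b : n → ℝ) :
    ‖cj U a - cj V b‖ ^ 2 = ∑ k, ∑ i, (a k - b i) ^ 2 * ‖(Uᴴ * V) k i‖ ^ 2 := by
  rw [norm_sq_eq, conjTranspose_sub, cj_herm, cj_herm, Matrix.sub_mul, Matrix.mul_sub,
    Matrix.mul_sub, rt_sub, rt_sub, rt_sub, rt_comm (cj V b) (cj U a), cj_mul hU, cj_mul hV,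
    rt_cj hU, rt_cj hV, rt_cj_cj]
  have h1 : ∑ k, a k * a k = ∑ k, ∑ i, a k * a k * ‖(Uᴴ * V) k i‖ ^ 2 :=
    sum_congr rfl fun k _ => by rw [← mul_sum, w_row hU hV, mul_one]
  have h2 : ∑ i, b i * b i = ∑ k, ∑ i, b i * b i * ‖(Uᴴ * V) k i‖ ^ 2 := by
    rw [sum_comm]
    exact sum_congr rfl fun k _ => by rw [← mul_sum, w_col hU hV, mul_one]
  rw [h1, h2]
  simp only [← sum_sub_distrib]
  refine sum_congr rfl fun k _ => sum_congr rfl fun i _ => by ring

lemma fc_cj {U : Matrix n n ℂ} (hU : Un U) (d : n → ℝ) (f : ℝ → ℝ) :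
    fc f (cj U d) = cj U fun i => f (d i) := by
  obtain ⟨V, e, hV, h1, h2⟩ := spec0 (X := cj U d) (cj_herm U d)
  rw [h2]
  have h3 := norm_cj_sub hU hV d e
  rw [← h1, sub_self, norm_zero] at h3
  have h4 : ∀ k i, (d k - e i) ^ 2 * ‖(Uᴴ * V) k i‖ ^ 2 = 0 := by
    intro k i
    have h7 : ∑ k, ∑ i, (d k - e i) ^ 2 * ‖(Uᴴ * V) k i‖ ^ 2 = 0 := by rw [← h3]; simp
    have := (sum_eq_zero_iff_of_nonneg fun k _ => sum_nonneg fun i _ => by positivity).1
      h7 k (mem_univ _)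
    exact (sum_eq_zero_iff_of_nonneg fun i _ => by positivity).1 this i (mem_univ _)
  have h5 := norm_cj_sub hU hV (fun i => f (d i)) (fun i => f (e i))
  have h6 : ∑ k, ∑ i, (f (d k) - f (e i)) ^ 2 * ‖(Uᴴ * V) k i‖ ^ 2 = 0 := by
    refine sum_eq_zero fun k _ => sum_eq_zero fun i _ => ?_
    rcases mul_eq_zero.1 (h4 k i) with h | h
    · have : d k = e i := by simpa [sub_eq_zero] using h
      simp [this]
    · rw [h, mul_zero]
  rw [h6] at h5
  exact (sub_eq_zero.1 (by simpa using h5)).symm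

lemma spec {X : Matrix n n ℂ} (hX : Xᴴ = X) : ∃ (U : Matrix n n ℂ) (d : n → ℝ),
    Un U ∧ X = cj U d := by
  obtain ⟨U, d, h1, h2, -⟩ := spec0 (X := X) hX
  exact ⟨U, d, h1, h2⟩

lemma fc_herm {X : Matrix n n ℂ} (hX : Xᴴ = X) (f : ℝ → ℝ) : (fc f X)ᴴ = fc f X := by
  obtain ⟨U, d, hU, rfl⟩ := spec hX
  rw [fc_cj hU, cj_herm]

lemma norm_cj_sq {U : Matrix n n ℂ} (hU : Un U) (d : n → ℝ) : ‖cj U d‖ ^ 2 = ∑ i, d i ^ 2 := by
  rw [norm_sq_eq, cj_herm, cj_mul hU, rt_cj hU]; simp [sq]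

lemma abs_le_norm_cj {U : Matrix n n ℂ} (hU : Un U) (d : n → ℝ) (i : n) : |d i| ≤ ‖cj U d‖ := by
  refine abs_le_of_sq_le_sq' ?_ (norm_nonneg _) |> abs_le.2
  rw [norm_cj_sq hU]
  exact single_le_sum (f := fun i => d i ^ 2) (fun _ _ => sq_nonneg _) (mem_univ i)

lemma norm_cj_le {U : Matrix n n ℂ} (hU : Un U) (d : n → ℝ) : ‖cj U d‖ ≤ ∑ i, |d i| := by
  refine abs_le_of_sq_le_sq' ?_ (sum_nonneg fun _ _ => abs_nonneg _) |>.2
  rw [norm_cj_sq hU]
  simpa using sum_sq_le_sq_sum_of_nonneg (s := univ) (f := fun i => |d i|)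
    fun _ _ => abs_nonneg _

lemma norm_le_rt {X : Matrix n n ℂ} (hX : X.PosSemidef) : ‖X‖ ≤ rt X := by
  obtain ⟨U, d, hU, rfl⟩ := spec (X := X) hX.isHermitian
  rw [rt_cj hU]
  refine (norm_cj_le hU d).trans (le_of_eq (sum_congr rfl fun i _ => ?_))
  exact abs_of_nonneg ((psd_cj_iff hU).1 hX i)

lemma fc_sub_le {X Y : Matrix n n ℂ} (hX : Xᴴ = X) (hY : Yᴴ = Y) {f : ℝ → ℝ} {ε C : ℝ}
    (h : ∀ x y, |x| ≤ ‖X‖ → |y| ≤ ‖Y‖ → (f x - f y) ^ 2 ≤ ε + C * (x - y) ^ 2) :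
    ‖fc f X - fc f Y‖ ^ 2 ≤ Fintype.card n * ε + C * ‖X - Y‖ ^ 2 := by
  obtain ⟨U, d, hU, rfl⟩ := spec hX
  obtain ⟨V, e, hV, rfl⟩ := spec hY
  rw [fc_cj hU, fc_cj hV, norm_cj_sub hU hV, norm_cj_sub hU hV]
  have h1 : Fintype.card n * ε = ∑ k, ∑ i, ε * ‖(Uᴴ * V) k i‖ ^ 2 := by
    simp [← mul_sum, w_row hU hV]
  rw [h1, mul_sum, ← sum_add_distrib]
  refine sum_le_sum fun k _ => ?_
  rw [mul_sum, ← sum_add_distrib]
  refine sum_le_sum fun i _ => ?_
  rw [← mul_assoc, ← add_mul]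
  exact mul_le_mul_of_nonneg_right (h _ _ (abs_le_norm_cj hU d k) (abs_le_norm_cj hV e i))
    (sq_nonneg _)

lemma fc_continuousOn {f : ℝ → ℝ} (hf : Continuous f) :
    ContinuousOn (fc f) {X : Matrix n n ℂ | Xᴴ = X} := by
  intro X hX
  refine Metric.continuousWithinAt_iff.2 fun ε hε => ?_
  set R := ‖X‖ + 1
  have hK : IsCompact (Set.Icc (-R) R) := isCompact_Icc
  obtain ⟨B, hB⟩ := hK.exists_bound_of_continuousOn hf.continuousOn
  set ε' : ℝ := ε / (Fintype.card n + 2) with hε'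
  have hε'0 : 0 < ε' := by positivity
  obtain ⟨δ, hδ, hd⟩ := Metric.uniformContinuousOn_iff_le.1
    (hK.uniformContinuousOn_of_continuous hf.continuousOn) ε' hε'0
  have hB0 : 0 ≤ B := (norm_nonneg _).trans (hB 0 ⟨neg_nonpos.2 (by positivity), by positivity⟩)
  refine ⟨min 1 (ε' * δ / (2 * B + 1)), by positivity, fun Y hY hXY => ?_⟩
  rw [dist_eq_norm] at hXY ⊢
  have h1 : ‖Y - X‖ < 1 := hXY.trans_le (min_le_left _ _)
  have h2 : ‖Y - X‖ < ε' * δ / (2 * B + 1) := hXY.trans_le (min_le_right _ _)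
  have h3 : ‖Y‖ ≤ R := by have := norm_sub_norm_le Y X; simp only [R]; linarith
  have key := fc_sub_le hY hX (f := f) (ε := ε' ^ 2) (C := ((2 * B + 1) / δ) ^ 2)
    fun x y hx hy => by
      have hx' : x ∈ Set.Icc (-R) R := abs_le.1 (hx.trans h3)
      have hy' : y ∈ Set.Icc (-R) R := abs_le.1 (hy.trans (by simp [R]))
      by_cases hxy : |x - y| ≤ δ
      · have := hd x hx' y hy' hxy
        rw [Real.dist_eq] at this
        have : (f x - f y) ^ 2 ≤ ε' ^ 2 := by rw [← sq_abs]; gcongr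
        have : 0 ≤ ((2 * B + 1) / δ) ^ 2 * (x - y) ^ 2 := by positivity
        linarith
      · push Not at hxy
        have b1 := hB x hx'
        have b2 := hB y hy'
        rw [Real.norm_eq_abs] at b1 b2
        have b3 : |f x - f y| ≤ (2 * B + 1) / δ * |x - y| := by
          have := abs_sub (f x) (f y)
          calc _ ≤ (2 * B + 1) / δ * δ := by rw [div_mul_cancel₀ _ hδ.ne']; linarith
            _ ≤ _ := by gcongr
        have : (f x - f y) ^ 2 ≤ ((2 * B + 1) / δ) ^ 2 * (x - y) ^ 2 := by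
          rw [← sq_abs (f x - f y), ← sq_abs (x - y), ← mul_pow]; gcongr
        have := sq_nonneg ε'
        linarith
  have h4 : (2 * B + 1) / δ * ‖Y - X‖ ≤ ε' := by
    rw [lt_div_iff₀ (by positivity)] at h2
    rw [div_mul_eq_mul_div, div_le_iff₀ hδ]; linarith
  have h5 : ((2 * B + 1) / δ) ^ 2 * ‖Y - X‖ ^ 2 ≤ ε' ^ 2 := by
    rw [← mul_pow]; gcongr
  refine lt_of_pow_lt_pow_left₀ 2 hε.le (key.trans_lt ?_)
  have : ε = ε' * (Fintype.card n + 2) := by rw [hε']; field_simp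
  rw [this]
  have : (0 : ℝ) ≤ Fintype.card n := Nat.cast_nonneg _
  nlinarith [sq_pos_of_pos hε'0, mul_nonneg this (sq_nonneg ε'),
    mul_nonneg (mul_nonneg this this) (sq_nonneg ε')]

lemma continuous_fc {α : Type*} [TopologicalSpace α] {f : ℝ → ℝ} (hf : Continuous f)
    {g : α → Matrix n n ℂ} (hg : Continuous g) (h : ∀ a, (g a)ᴴ = g a) :
    Continuous fun a => fc f (g a) :=
  (fc_continuousOn hf).comp_continuous hg h

lemma continuousOn_fc {α : Type*} [TopologicalSpace α] {f : ℝ → ℝ} (hf : Continuous f)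
    {g : α → Matrix n n ℂ} {s : Set α} (hg : ContinuousOn g s) (h : ∀ a ∈ s, (g a)ᴴ = g a) :
    ContinuousOn (fun a => fc f (g a)) s :=
  (fc_continuousOn hf).comp hg h

omit [DecidableEq n] [DecidableEq m] in
lemma abs_rt_mul_le (X : Matrix n m ℂ) (Y : Matrix m n ℂ) : |rt (X * Y)| ≤ ‖X‖ * ‖Y‖ := by
  have h1 : ‖trace (X * Y)‖ ≤ ∑ p : n × m, ‖X p.1 p.2‖ * ‖Y p.2 p.1‖ := by
    rw [Fintype.sum_prod_type]
    simp only [trace, diag_apply, mul_apply]
    refine (norm_sum_le _ _).trans (sum_le_sum fun i _ => (norm_sum_le _ _).trans ?_)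
    simp
  have h2 := sum_mul_sq_le_sq_mul_sq univ (fun p : n × m => ‖X p.1 p.2‖)
    (fun p : n × m => ‖Y p.2 p.1‖)
  have h3 : ∑ p : n × m, ‖X p.1 p.2‖ ^ 2 = ‖X‖ ^ 2 := by
    rw [norm_sq_eq, rt_ctm, Fintype.sum_prod_type]
  have h4 : ∑ p : n × m, ‖Y p.2 p.1‖ ^ 2 = ‖Y‖ ^ 2 := by
    rw [norm_sq_eq, rt_ctm, Fintype.sum_prod_type_right]
  rw [h3, h4, ← mul_pow] at h2
  refine ((Complex.abs_re_le_norm _).trans h1).trans ?_
  exact (abs_le_of_sq_le_sq' h2 (by positivity)).2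

/-- `rt` as a continuous linear map -/
noncomputable def rtL : Matrix n n ℂ →L[ℝ] ℝ :=
  LinearMap.toContinuousLinearMap
    { toFun := rt, map_add' := rt_add, map_smul' := fun c X => rt_smul c X }

omit [DecidableEq n] in
lemma rtL_apply (X : Matrix n n ℂ) : rtL X = rt X := rfl

omit [DecidableEq n] in
lemma continuous_rt : Continuous (rt : Matrix n n ℂ → ℝ) := (rtL (n := n)).continuous

lemma hasDeriv_rt_fc {f f' : ℝ → ℝ} {S : Set ℝ} {C : ℝ}
    (hf : ∀ x ∈ S, ∀ y ∈ S, |f y - f x - f' x * (y - x)| ≤ C * (y - x) ^ 2)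
    {X : ℝ → Matrix n n ℂ} {X' : Matrix n n ℂ} {I : Set ℝ} {t : ℝ} (ht : t ∈ I)
    (hS : ∀ u ∈ I, ∃ U d, Un U ∧ X u = cj U d ∧ ∀ i, d i ∈ S)
    (hX : HasDerivWithinAt X X' I t) :
    HasDerivWithinAt (fun u => rt (fc f (X u))) (rt (fc f' (X t) * X')) I t := by
  have key : ∀ u ∈ I, |rt (fc f (X u)) - rt (fc f (X t)) - rt (fc f' (X t) * (X u - X t))| ≤
      C * ‖X u - X t‖ ^ 2 := by
    intro u hu
    obtain ⟨U, d, hU, e1, h1⟩ := hS t ht
    obtain ⟨V, e, hV, e2, h2⟩ := hS u hu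
    rw [e1, e2, norm_sub_rev, norm_cj_sub hU hV, fc_cj hU, fc_cj hU, fc_cj hV, Matrix.mul_sub,
      rt_sub, cj_mul hU, rt_cj hU, rt_cj hU, rt_cj hV, rt_cj_cj]
    have r1 : ∀ a : n → ℝ, ∑ k, a k = ∑ k, ∑ i, a k * ‖(Uᴴ * V) k i‖ ^ 2 := fun a =>
      sum_congr rfl fun k _ => by rw [← mul_sum, w_row hU hV, mul_one]
    have r2 : ∑ i, f (e i) = ∑ k, ∑ i, f (e i) * ‖(Uᴴ * V) k i‖ ^ 2 := by
      rw [sum_comm]
      exact sum_congr rfl fun k _ => by rw [← mul_sum, w_col hU hV, mul_one]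
    rw [r2, r1 fun k => f (d k), r1 fun k => f' (d k) * d k, mul_sum]
    simp only [← sum_sub_distrib]
    refine (abs_sum_le_sum_abs _ _).trans (sum_le_sum fun k _ => ?_)
    rw [mul_sum]
    refine (abs_sum_le_sum_abs _ _).trans (sum_le_sum fun i _ => ?_)
    have := hf _ (h1 k) _ (h2 i)
    calc _ = |f (e i) - f (d k) - f' (d k) * (e i - d k)| * ‖(Uᴴ * V) k i‖ ^ 2 := by
          conv_rhs => rw [← abs_of_nonneg (sq_nonneg ‖(Uᴴ * V) k i‖), ← abs_mul]
          congr 1; ring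
      _ ≤ C * (e i - d k) ^ 2 * ‖(Uᴴ * V) k i‖ ^ 2 := by gcongr
      _ = _ := by ring
  have hl : HasDerivWithinAt (fun u => rt (fc f' (X t) * (X u - X t))) (rt (fc f' (X t) * X'))
      I t := by
    have := (rtL (n := n)).hasFDerivAt.comp_hasDerivWithinAt t
      ((hX.sub_const (X t)).const_mul (fc f' (X t)))
    exact this
  have hq : HasDerivWithinAt (fun u => rt (fc f (X u)) - rt (fc f (X t)) -
      rt (fc f' (X t) * (X u - X t))) 0 I t := by
    rw [hasDerivWithinAt_iff_isLittleO]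
    simp only [sub_self, Matrix.mul_zero, rt_zero, smul_zero, sub_zero]
    have b1 : (fun u => X u - X t) =O[nhdsWithin t I] fun u => u - t :=
      hX.hasFDerivWithinAt.isBigO_sub
    have b2 : (fun u => X u - X t) =o[nhdsWithin t I] fun _ => (1 : ℝ) := by
      rw [Asymptotics.isLittleO_one_iff]
      have := hX.continuousWithinAt.tendsto.sub_const (X t)
      simpa using this
    have b3 := (b2.norm_left.mul_isBigO b1.norm_left)
    simp only [one_mul] at b3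
    refine Asymptotics.IsBigO.trans_isLittleO ?_ b3
    refine Asymptotics.IsBigO.of_bound |C| ?_
    filter_upwards [self_mem_nhdsWithin] with u hu
    rw [Real.norm_eq_abs, Real.norm_eq_abs, ← sq, abs_of_nonneg (sq_nonneg ‖X u - X t‖)]
    exact (key u hu).trans (by gcongr; exact le_abs_self _)
  have := (hq.add hl).add_const (rt (fc f (X t)))
  simpa using this

end norms

end Vale.Agent.P371
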